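import Vale.Agent.P075.Core

/-! The Bellman functional `tr M^(3/2)` and the one-step inequality. -/

namespace Vale.Agent.P075

open Matrix

variable {α β : Type} [Fintype α] [DecidableEq α] [Fintype β] [DecidableEq β]

open Classical in
/-- A choice of eigenvalues of a symmetric matrix. -/
noncomputable def eig (M : Matrix α α ℝ) : α → ℝ :=
  if h : Mᵀ = M then (exists_diag h).choose_spec.choose else 0

lemma eig_spec {M : Matrix α α ℝ} (h : Mᵀ = M) :
    ∃ U : Matrix α α ℝ, Uᵀ * U = 1 ∧ U * Uᵀ = 1 ∧ M = U * diagonal (eig M) * Uᵀ := by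
  refine ⟨(exists_diag h).choose, ?_⟩
  have := (exists_diag h).choose_spec.choose_spec
  simp only [eig, h, dif_pos]
  exact this

/-- The trace of `M^(3/2)`. -/
noncomputable def Phi (M : Matrix α α ℝ) : ℝ := ∑ i, √(eig M i) ^ 3

/-- Positive definiteness. -/
def PD (M : Matrix α α ℝ) : Prop := Mᵀ = M ∧ ∀ x : α → ℝ, x ⬝ᵥ x = 1 → 0 < x ⬝ᵥ (M *ᵥ x)

lemma phi_nonneg (M : Matrix α α ℝ) : 0 ≤ Phi M :=
  Finset.sum_nonneg fun _ _ => by positivity

lemma phi_spec {M : Matrix α α ℝ} (h : PD M) :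
    ∃ (U : Matrix α α ℝ) (ν : α → ℝ), Uᵀ * U = 1 ∧ U * Uᵀ = 1 ∧ (∀ i, 0 < ν i) ∧
      M = U * diagonal (fun i => ν i ^ 2) * Uᵀ ∧ Phi M = ∑ i, ν i ^ 3 := by
  obtain ⟨U, h1, h2, h3⟩ := eig_spec h.1
  have hpos : ∀ j, 0 < eig M j := by
    intro j
    have := h.2 _ (col_dot h1 j)
    rwa [col_eigen h1 h3 j, dotProduct_smul, col_dot h1, smul_eq_mul, mul_one] at this
  refine ⟨U, fun i => √(eig M i), h1, h2, fun i => Real.sqrt_pos.2 (hpos i), ?_, rfl⟩
  simp only [Real.sq_sqrt (hpos _).le]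
  exact h3

lemma trace_conj {U : Matrix α α ℝ} (h1 : Uᵀ * U = 1) (X : Matrix α α ℝ) :
    trace (U * X * Uᵀ) = trace X := by
  rw [trace_mul_comm, ← Matrix.mul_assoc, h1, Matrix.one_mul]

lemma young_rect {G : Matrix β α ℝ} (hG : PD (G * Gᵀ)) {s : Matrix α α ℝ} (hs : sᵀ = s)
    (hp : ∀ y, 0 ≤ y ⬝ᵥ (s *ᵥ y)) :
    3 / 2 * trace (G * s * Gᵀ) - 1 / 2 * trace (s * s * s) ≤ Phi (G * Gᵀ) := by
  obtain ⟨U, a, h1, h2, ha, h3, h4⟩ := phi_spec hG
  obtain ⟨W, σ, w1, w2, w3⟩ := exists_diag hs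
  have hσ : ∀ j, 0 ≤ σ j := by
    intro j
    have := hp (fun i => W i j)
    rwa [col_eigen w1 w3 j, dotProduct_smul, col_dot w1, smul_eq_mul, mul_one] at this
  set H := Uᵀ * G * W with hH
  have hHH : H * Hᵀ = diagonal (fun i => a i ^ 2) := by
    have : H * Hᵀ = Uᵀ * (G * Gᵀ) * U := by
      rw [hH, transpose_mul, transpose_mul, transpose_transpose]
      simp only [Matrix.mul_assoc]
      rw [← Matrix.mul_assoc W, w2, Matrix.one_mul]
    rw [this, h3]
    simp only [Matrix.mul_assoc]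
    rw [h1, Matrix.mul_one, ← Matrix.mul_assoc, h1, Matrix.one_mul]
  set C := diagonal (fun i => (a i)⁻¹) * H with hC
  have hCC : C * Cᵀ = 1 := by
    rw [hC, transpose_mul, diagonal_transpose, Matrix.mul_assoc, ← Matrix.mul_assoc H, hHH,
      diagonal_mul_diagonal, diagonal_mul_diagonal, ← diagonal_one]
    congr 1
    funext i
    have := ha i
    field_simp
  have hy := (contr_of_mul_transpose hCC).young (fun i => (ha i).le) hσ
  have e1 : trace (G * s * Gᵀ) = ∑ i, ∑ j, a i ^ 2 * σ j * C i j ^ 2 := by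
    have : trace (G * s * Gᵀ) = trace (H * diagonal σ * Hᵀ) := by
      rw [← trace_conj (U := Uᵀ) (by simpa using h2) (G * s * Gᵀ), hH, transpose_mul,
        transpose_mul, transpose_transpose]
      conv_lhs => rw [w3]
      simp only [Matrix.mul_assoc]
    rw [this]
    simp only [trace, Matrix.diag]
    refine Finset.sum_congr rfl fun i _ => ?_
    rw [mul_apply]
    refine Finset.sum_congr rfl fun j _ => ?_
    simp only [mul_diagonal, transpose_apply, hC, diagonal_mul]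
    have := ha i
    field_simp
  have e2 : trace (s * s * s) = ∑ j, σ j ^ 3 := by
    have : s * s * s = W * (diagonal σ * diagonal σ * diagonal σ) * Wᵀ := by
      conv_lhs => rw [w3]
      simp only [Matrix.mul_assoc]
      rw [← Matrix.mul_assoc Wᵀ W, w1, Matrix.one_mul, ← Matrix.mul_assoc Wᵀ W, w1, Matrix.one_mul]
    rw [this, trace_conj w1, diagonal_mul_diagonal, diagonal_mul_diagonal, trace_diagonal]
    exact Finset.sum_congr rfl fun j _ => by ring
  rw [e1, e2, h4]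
  linarith

lemma young_sq {X : Matrix α α ℝ} (hX : PD X) {s : Matrix α α ℝ} (hs : sᵀ = s)
    (hp : ∀ y, 0 ≤ y ⬝ᵥ (s *ᵥ y)) :
    3 / 2 * trace (X * s) - 1 / 2 * trace (s * s * s) ≤ Phi X := by
  obtain ⟨U, a, h1, h2, ha, h3, h4⟩ := phi_spec hX
  set G := U * diagonal a * Uᵀ with hG
  have hGt : Gᵀ = G := by
    rw [hG, transpose_mul, transpose_mul, transpose_transpose, diagonal_transpose, Matrix.mul_assoc]
  have hGG : G * G = X := by
    rw [h3, hG]
    simp only [Matrix.mul_assoc]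
    rw [← Matrix.mul_assoc Uᵀ U, h1, Matrix.one_mul, ← Matrix.mul_assoc (diagonal a),
      diagonal_mul_diagonal]
    simp only [pow_two]
  have hGG' : G * Gᵀ = X := by rw [hGt, hGG]
  have := young_rect (G := G) (by rw [hGG']; exact hX) hs hp
  rw [hGG', hGt, trace_mul_comm, ← Matrix.mul_assoc, hGG] at this
  exact this

lemma half_sq : (√2 / 2 : ℝ) ^ 2 = 1 / 2 := by
  rw [div_pow, Real.sq_sqrt (by norm_num)]
  norm_num

lemma phi_add {X Y : Matrix α α ℝ} (hX : PD X) (hY : PD Y) (hXY : PD (X + Y)) :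
    √2 / 2 * Phi (X + Y) ≤ Phi X + Phi Y := by
  obtain ⟨U, a, h1, h2, ha, h3, h4⟩ := phi_spec hXY
  have hc := half_sq
  have hc0 : (0 : ℝ) ≤ √2 / 2 := by positivity
  set c : ℝ := √2 / 2
  set G := U * diagonal a * Uᵀ with hG
  have hGt : Gᵀ = G := by
    rw [hG, transpose_mul, transpose_mul, transpose_transpose, diagonal_transpose, Matrix.mul_assoc]
  have hGG : G * G = X + Y := by
    rw [h3, hG]
    simp only [Matrix.mul_assoc]
    rw [← Matrix.mul_assoc Uᵀ U, h1, Matrix.one_mul, ← Matrix.mul_assoc (diagonal a),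
      diagonal_mul_diagonal]
    simp only [pow_two]
  have hG3 : trace (G * G * G) = ∑ i, a i ^ 3 := by
    have : G * G * G = U * (diagonal a * diagonal a * diagonal a) * Uᵀ := by
      rw [hG]
      simp only [Matrix.mul_assoc]
      rw [← Matrix.mul_assoc Uᵀ U, h1, Matrix.one_mul, ← Matrix.mul_assoc Uᵀ U, h1, Matrix.one_mul]
    rw [this, trace_conj h1, diagonal_mul_diagonal, diagonal_mul_diagonal, trace_diagonal]
    exact Finset.sum_congr rfl fun j _ => by ring
  have hs : (c • G)ᵀ = c • G := by rw [transpose_smul, hGt]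
  have hp : ∀ y, 0 ≤ y ⬝ᵥ ((c • G) *ᵥ y) := by
    intro y
    rw [smul_mulVec, dotProduct_smul, smul_eq_mul, hG, ← mulVec_mulVec, ← mulVec_mulVec,
      dot_mulVec_eq, dot_diagonal]
    exact mul_nonneg hc0 (Finset.sum_nonneg fun i _ => mul_nonneg (ha i).le (sq_nonneg _))
  have y1 := young_sq hX hs hp
  have y2 := young_sq hY hs hp
  have e1 : trace (X * (c • G)) + trace (Y * (c • G)) = c * ∑ i, a i ^ 3 := by
    rw [← trace_add, ← Matrix.add_mul, ← hGG, Matrix.mul_smul, trace_smul, hG3, smul_eq_mul]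
  have e2 : trace (c • G * c • G * c • G) = c / 2 * ∑ i, a i ^ 3 := by
    simp only [Matrix.mul_smul, Matrix.smul_mul, trace_smul, hG3, smul_eq_mul]
    calc c * (c * (c * ∑ i, a i ^ 3)) = c * c ^ 2 * ∑ i, a i ^ 3 := by ring
      _ = _ := by rw [hc]; ring
  rw [h4]
  linarith

/-- The Haar sign matrix. -/
def sgn (β : Type) [DecidableEq β] : Matrix (Bool × β) (Bool × β) ℝ :=
  diagonal fun x => if x.1 then -1 else 1

/-- The block of a matrix with given halves. -/
def blk (F : Matrix (Bool × β) (Bool × β) ℝ) (i j : Bool) : Matrix β β ℝ :=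
  F.submatrix (Prod.mk i) (Prod.mk j)

lemma trace_kap {ν : α → ℝ} {Z : Matrix α α ℝ} (hZ : Zᵀ = Z) :
    trace (diagonal ν * Z * Z) = kap ν Z := by
  simp only [trace, Matrix.diag, kap]
  refine Finset.sum_congr rfl fun i _ => ?_
  rw [mul_apply]
  refine Finset.sum_congr rfl fun j _ => ?_
  have : Z j i = Z i j := congrFun (congrFun hZ i) j
  rw [diagonal_mul, this]
  ring

lemma contr_sgn : Contr (sgn β) := by
  refine contr_of_transpose_mul ?_
  rw [sgn, diagonal_transpose, diagonal_mul_diagonal, ← diagonal_one]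
  congr 1
  funext x
  cases x.1 <;> simp

lemma phi_half {M U : Matrix (Bool × β) (Bool × β) ℝ} {ν : Bool × β → ℝ} (h1 : Uᵀ * U = 1)
    (hν : ∀ i, 0 < ν i) (hM : M = U * diagonal (fun i => ν i ^ 2) * Uᵀ)
    (hf : PD (blk M false false)) (ht : PD (blk M true true)) :
    √2 / 2 * (∑ i, ν i ^ 3 + 3 / 2 * kap ν (lyap ν (Uᵀ * sgn β * U)))
      ≤ Phi (blk M false false) + Phi (blk M true true) := by
  have hc := half_sq
  have hc0 : (0 : ℝ) ≤ √2 / 2 := by positivity
  set c : ℝ := √2 / 2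
  set J := Uᵀ * sgn β * U with hJ
  have hU := contr_of_transpose_mul h1
  have hJs : Jᵀ = J := by
    rw [hJ, transpose_mul, transpose_mul, transpose_transpose, sgn, diagonal_transpose,
      Matrix.mul_assoc]
  have hJc : Contr J := (hU.transpose.mul contr_sgn).mul hU
  have hZs := lyap_symm (ν := ν) hJs
  have hZb := lyap_bound hν hJs hJc
  have hZe := lyap_eq hν J
  set Z := lyap ν J
  set N := diagonal ν with hN
  have hNs : Nᵀ = N := diagonal_transpose _
  let V : Bool → Matrix β (Bool × β) ℝ := fun b => U.submatrix (Prod.mk b) id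
  have hGG : ∀ b, (V b * N) * (V b * N)ᵀ = blk M b b := by
    intro b
    ext i j
    rw [hM, mul_apply, blk, submatrix_apply, mul_apply]
    refine Finset.sum_congr rfl fun k _ => ?_
    rw [transpose_apply, transpose_apply, hN, mul_diagonal, mul_diagonal, mul_diagonal]
    simp only [V, submatrix_apply, id]
    ring
  have hsum : (V false)ᵀ * V false + (V true)ᵀ * V true = 1 := by
    rw [← h1]
    ext i j
    simp only [Matrix.add_apply, mul_apply, transpose_apply, V, submatrix_apply, id,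
      Fintype.sum_prod_type, Fintype.sum_bool]
    ring
  have hdiff : (V false)ᵀ * V false - (V true)ᵀ * V true = J := by
    ext i j
    rw [hJ, mul_apply]
    simp only [Matrix.sub_apply, mul_apply (M := (V _)ᵀ), transpose_apply, V, submatrix_apply, id,
      sgn, mul_diagonal, Fintype.sum_prod_type, Fintype.sum_bool]
    simp
    ring
  have hp : ∀ σ : ℝ, |σ| ≤ 1 → ∀ y, 0 ≤ y ⬝ᵥ ((c • (N + σ • Z)) *ᵥ y) := by
    intro σ hσ y
    rw [smul_mulVec, dotProduct_smul, smul_eq_mul, add_mulVec, dotProduct_add, smul_mulVec,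
      dotProduct_smul, smul_eq_mul, hN, dot_diagonal]
    refine mul_nonneg hc0 ?_
    have h2 := hZb y
    have h3 : 0 ≤ ∑ i, ν i * y i ^ 2 :=
      Finset.sum_nonneg fun i _ => mul_nonneg (hν i).le (sq_nonneg _)
    have h4 : |σ * (y ⬝ᵥ (Z *ᵥ y))| ≤ |y ⬝ᵥ (Z *ᵥ y)| := by
      rw [abs_mul]
      exact mul_le_of_le_one_left (abs_nonneg _) hσ
    have h5 := neg_abs_le (σ * (y ⬝ᵥ (Z *ᵥ y)))
    linarith
  have hs : ∀ σ : ℝ, (c • (N + σ • Z))ᵀ = c • (N + σ • Z) := by
    intro σ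
    rw [transpose_smul, transpose_add, transpose_smul, hNs, hZs]
  have y1 := young_rect (G := V false * N) (by rw [hGG]; exact hf) (hs 1) (hp 1 (by simp))
  have y2 := young_rect (G := V true * N) (by rw [hGG]; exact ht) (hs (-1)) (hp (-1) (by simp))
  rw [hGG] at y1 y2
  have hN3 : trace (N * N * N) = ∑ i, ν i ^ 3 := by
    rw [hN, diagonal_mul_diagonal, diagonal_mul_diagonal, trace_diagonal]
    exact Finset.sum_congr rfl fun j _ => by ring
  have k1 : trace (N * Z * Z) = kap ν Z := trace_kap hZs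
  have k2 : trace (Z * N * Z) = kap ν Z := by
    rw [← k1, Matrix.mul_assoc, trace_mul_comm]
  have k3 : trace (Z * Z * N) = kap ν Z := by
    rw [← k1, trace_mul_comm, Matrix.mul_assoc]
  have e0 : ∀ (b : Bool) (s : Matrix (Bool × β) (Bool × β) ℝ),
      trace (V b * N * s * (V b * N)ᵀ) = trace (N * ((V b)ᵀ * V b) * N * s) := by
    intro b s
    rw [trace_mul_comm, transpose_mul, hNs]
    simp only [Matrix.mul_assoc]
  have e1 : trace (V false * N * c • (N + (1 : ℝ) • Z) * (V false * N)ᵀ)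
      + trace (V true * N * c • (N + (-1 : ℝ) • Z) * (V true * N)ᵀ)
      = c * (∑ i, ν i ^ 3 + 2 * kap ν Z) := by
    rw [e0, e0, ← trace_add]
    set P := (V false)ᵀ * V false
    set Q := (V true)ᵀ * V true
    have : N * P * N * c • (N + (1 : ℝ) • Z) + N * Q * N * c • (N + (-1 : ℝ) • Z)
        = c • (N * (P + Q) * N * N + N * (P - Q) * N * Z) := by
      simp only [Matrix.mul_smul, one_smul, neg_smul, ← smul_add]
      congr 1
      noncomm_ring
    rw [this, hsum, hdiff, ← hZe, trace_smul, Matrix.mul_one, Matrix.add_mul, trace_add, trace_add,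
      hN3, k1, k2, smul_eq_mul]
    ring
  have e2 : trace (c • (N + (1 : ℝ) • Z) * c • (N + (1 : ℝ) • Z) * c • (N + (1 : ℝ) • Z))
      + trace (c • (N + (-1 : ℝ) • Z) * c • (N + (-1 : ℝ) • Z) * c • (N + (-1 : ℝ) • Z))
      = c * (∑ i, ν i ^ 3 + 3 * kap ν Z) := by
    simp only [Matrix.mul_smul, Matrix.smul_mul, trace_smul, smul_eq_mul, one_smul, neg_smul]
    have : trace ((N + Z) * (N + Z) * (N + Z)) + trace ((N + -Z) * (N + -Z) * (N + -Z))
        = 2 * (∑ i, ν i ^ 3 + 3 * kap ν Z) := by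
      rw [← trace_add]
      have : (N + Z) * (N + Z) * (N + Z) + (N + -Z) * (N + -Z) * (N + -Z)
          = (N * N * N + N * Z * Z + Z * N * Z + Z * Z * N)
            + (N * N * N + N * Z * Z + Z * N * Z + Z * Z * N) := by noncomm_ring
      rw [this]
      simp only [trace_add, hN3, k1, k2, k3]
      ring
    calc _ = c * c ^ 2 * (trace ((N + Z) * (N + Z) * (N + Z))
          + trace ((N + -Z) * (N + -Z) * (N + -Z))) := by ring
      _ = _ := by rw [this, hc]; ring
  linarith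

/-- The positive matrix attached to one vertex of a triple. -/
def vtx (A C : Matrix α α ℝ) (e : ℝ) : Matrix α α ℝ := A * Aᵀ + Cᵀ * C + e • 1

lemma vtx_form (A C : Matrix α α ℝ) (e : ℝ) (x : α → ℝ) :
    x ⬝ᵥ (vtx A C e *ᵥ x) = (Aᵀ *ᵥ x) ⬝ᵥ (Aᵀ *ᵥ x) + (C *ᵥ x) ⬝ᵥ (C *ᵥ x) + e * (x ⬝ᵥ x) := by
  rw [vtx, add_mulVec, add_mulVec, dotProduct_add, dotProduct_add, ← mulVec_mulVec,
    ← mulVec_mulVec, dot_mulVec_eq A, dot_mulVec_eq Cᵀ, transpose_transpose, smul_mulVec,
    one_mulVec, dotProduct_smul, smul_eq_mul]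

lemma vtx_pd (A C : Matrix α α ℝ) {e : ℝ} (he : 0 < e) : PD (vtx A C e) := by
  refine ⟨by simp [vtx, transpose_add, transpose_mul], fun x hx => ?_⟩
  rw [vtx_form, hx]
  have := dot_self_nonneg (Aᵀ *ᵥ x)
  have := dot_self_nonneg (C *ᵥ x)
  linarith

omit [DecidableEq α] in
lemma PD.add {X Y : Matrix α α ℝ} (hX : PD X) (hY : PD Y) : PD (X + Y) := by
  refine ⟨by rw [transpose_add, hX.1, hY.1], fun x hx => ?_⟩
  rw [add_mulVec, dotProduct_add]
  exact add_pos (hX.2 x hx) (hY.2 x hx)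

lemma blk_vtx (A C : Matrix (Bool × β) (Bool × β) ℝ) (e : ℝ) (b : Bool) :
    blk (vtx A C (2 * e)) b b
      = vtx (blk A b false) (blk C (xor b false) b) e + vtx (blk A b true) (blk C (xor b true) b) e := by
  ext i j
  simp only [blk, vtx, submatrix_apply, Matrix.add_apply, mul_apply, transpose_apply,
    Fintype.sum_prod_type, Fintype.sum_bool, Matrix.smul_apply, one_apply, Prod.mk.injEq, true_and,
    smul_eq_mul]
  cases b <;> simp <;> split_ifs <;> ring

lemma gain (A C : Matrix (Bool × β) (Bool × β) ℝ) {e : ℝ} (he : 0 < e) :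
    ∃ (U : Matrix (Bool × β) (Bool × β) ℝ) (ν : Bool × β → ℝ), Uᵀ * U = 1 ∧ U * Uᵀ = 1 ∧
      (∀ i, 0 < ν i) ∧ vtx A C (2 * e) = U * diagonal (fun i => ν i ^ 2) * Uᵀ ∧
      Phi (vtx A C (2 * e)) + 3 / 2 * kap ν (lyap ν (Uᵀ * sgn β * U))
        ≤ 2 * ∑ b, ∑ c, Phi (vtx (blk A b c) (blk C (xor b c) b) e) := by
  obtain ⟨U, ν, h1, h2, hν, h3, h4⟩ := phi_spec (vtx_pd A C (by linarith : 0 < 2 * e))
  refine ⟨U, ν, h1, h2, hν, h3, ?_⟩
  have hb : ∀ b, PD (blk (vtx A C (2 * e)) b b) := fun b => by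
    rw [blk_vtx]
    exact (vtx_pd _ _ he).add (vtx_pd _ _ he)
  have g := phi_half h1 hν h3 (hb false) (hb true)
  have g2 : ∀ b, √2 / 2 * Phi (blk (vtx A C (2 * e)) b b)
      ≤ ∑ c, Phi (vtx (blk A b c) (blk C (xor b c) b) e) := by
    intro b
    rw [blk_vtx, Fintype.sum_bool, add_comm (Phi _)]
    exact phi_add (vtx_pd _ _ he) (vtx_pd _ _ he) ((vtx_pd _ _ he).add (vtx_pd _ _ he))
  have g3 := g2 false
  have g4 := g2 true
  rw [Fintype.sum_bool, h4]
  have hc := half_sq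
  have hc0 : (0 : ℝ) ≤ √2 / 2 := by positivity
  set c : ℝ := √2 / 2
  have g5 := mul_le_mul_of_nonneg_left g hc0
  rw [← mul_assoc, ← pow_two, hc, mul_add c] at g5
  linarith

lemma contr_of_vtx {A C U : Matrix α α ℝ} {ν : α → ℝ} {e : ℝ} (he : 0 < e) (h1 : Uᵀ * U = 1)
    (hν : ∀ i, 0 < ν i) (h : vtx A C e = U * diagonal (fun i => ν i ^ 2) * Uᵀ) :
    Contr (diagonal (fun i => (ν i)⁻¹) * Uᵀ * A) ∧ Contr (C * U * diagonal (fun i => (ν i)⁻¹)) := by
  have key : ∀ y : α → ℝ, ((U * diagonal (fun i => (ν i)⁻¹)) *ᵥ y)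
      ⬝ᵥ (vtx A C e *ᵥ ((U * diagonal (fun i => (ν i)⁻¹)) *ᵥ y)) = y ⬝ᵥ y := by
    intro y
    have : (U * diagonal (fun i => (ν i)⁻¹))ᵀ * vtx A C e * (U * diagonal (fun i => (ν i)⁻¹))
        = 1 := by
      rw [h, transpose_mul, diagonal_transpose]
      simp only [Matrix.mul_assoc]
      rw [← Matrix.mul_assoc Uᵀ U, h1, Matrix.one_mul, ← Matrix.mul_assoc Uᵀ U, h1, Matrix.one_mul,
        diagonal_mul_diagonal, diagonal_mul_diagonal, ← diagonal_one]
      congr 1
      funext i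
      have := hν i
      field_simp
    rw [← transpose_transpose (U * diagonal (fun i => (ν i)⁻¹)), ← dot_mulVec_eq,
      transpose_transpose, mulVec_mulVec, mulVec_mulVec, this, one_mulVec]
  constructor
  · have : Contr (diagonal (fun i => (ν i)⁻¹) * Uᵀ * A)ᵀ := by
      intro y
      have k := key y
      rw [vtx_form] at k
      rw [transpose_mul, transpose_mul, transpose_transpose, diagonal_transpose, ← mulVec_mulVec]
      have := dot_self_nonneg (C *ᵥ ((U * diagonal (fun i => (ν i)⁻¹)) *ᵥ y))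
      have := mul_nonneg he.le (dot_self_nonneg ((U * diagonal (fun i => (ν i)⁻¹)) *ᵥ y))
      linarith
    simpa using this.transpose
  · intro y
    have k := key y
    rw [vtx_form] at k
    rw [Matrix.mul_assoc, ← mulVec_mulVec]
    have := dot_self_nonneg (Aᵀ *ᵥ ((U * diagonal (fun i => (ν i)⁻¹)) *ᵥ y))
    have := mul_nonneg he.le (dot_self_nonneg ((U * diagonal (fun i => (ν i)⁻¹)) *ᵥ y))
    linarith

/-- The Bellman functional of a triple. -/
noncomputable def Psi (F0 F1 F2 : Matrix α α ℝ) (e : ℝ) : ℝ :=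
  Phi (vtx F0 F2 e) + Phi (vtx F1 F0 e) + Phi (vtx F2 F1 e)

theorem one_step (F0 F1 F2 : Matrix (Bool × β) (Bool × β) ℝ) {e : ℝ} (he : 0 < e) :
    |trace (sgn β * F0 * sgn β * F1 * sgn β * F2)| + Psi F0 F1 F2 (2 * e)
      ≤ 2 * ∑ i, ∑ j, Psi (blk F0 i j) (blk F1 j (xor i j)) (blk F2 (xor i j) i) e := by
  obtain ⟨U0, ν0, a0, b0, p0, d0, g0⟩ := gain F0 F2 he
  obtain ⟨U1, ν1, a1, b1, p1, d1, g1⟩ := gain F1 F0 he
  obtain ⟨U2, ν2, a2, b2, p2, d2, g2⟩ := gain F2 F1 he
  have he2 : 0 < 2 * e := by linarith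
  obtain ⟨l0, r2⟩ := contr_of_vtx he2 a0 p0 d0
  obtain ⟨l1, r0⟩ := contr_of_vtx he2 a1 p1 d1
  obtain ⟨l2, r1⟩ := contr_of_vtx he2 a2 p2 d2
  have u0 := contr_of_transpose_mul a0
  have u1 := contr_of_transpose_mul a1
  have u2 := contr_of_transpose_mul a2
  have sym : ∀ U : Matrix (Bool × β) (Bool × β) ℝ, (Uᵀ * sgn β * U)ᵀ = Uᵀ * sgn β * U := by
    intro U
    rw [transpose_mul, transpose_mul, transpose_transpose, sgn, diagonal_transpose,
      Matrix.mul_assoc]
  have T := trilinear (F0 := U0ᵀ * F0 * U1) (F1 := U1ᵀ * F1 * U2) (F2 := U2ᵀ * F2 * U0) p0 p1 p2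
    (sym U0) (sym U1) (sym U2) ((u0.transpose.mul contr_sgn).mul u0)
    ((u1.transpose.mul contr_sgn).mul u1) ((u2.transpose.mul contr_sgn).mul u2)
    (by simpa only [Matrix.mul_assoc] using l0.mul u1)
    (by simpa only [Matrix.mul_assoc] using u0.transpose.mul r0)
    (by simpa only [Matrix.mul_assoc] using l1.mul u2)
    (by simpa only [Matrix.mul_assoc] using u1.transpose.mul r1)
    (by simpa only [Matrix.mul_assoc] using l2.mul u0)
    (by simpa only [Matrix.mul_assoc] using u2.transpose.mul r2)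
  have e : trace (U0ᵀ * sgn β * U0 * (U0ᵀ * F0 * U1) * (U1ᵀ * sgn β * U1) * (U1ᵀ * F1 * U2)
      * (U2ᵀ * sgn β * U2) * (U2ᵀ * F2 * U0)) = trace (sgn β * F0 * sgn β * F1 * sgn β * F2) := by
    rw [← trace_conj (U := U0ᵀ) (by simpa using b0) (sgn β * F0 * sgn β * F1 * sgn β * F2),
      transpose_transpose]
    simp only [Matrix.mul_assoc]
    simp only [← Matrix.mul_assoc U0 U0ᵀ, ← Matrix.mul_assoc U1 U1ᵀ, ← Matrix.mul_assoc U2 U2ᵀ,
      b0, b1, b2, Matrix.one_mul]
  rw [e] at T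
  have k0 : 0 ≤ kap ν0 (lyap ν0 (U0ᵀ * sgn β * U0)) :=
    Finset.sum_nonneg fun i _ => Finset.sum_nonneg fun j _ => mul_nonneg (p0 i).le (sq_nonneg _)
  have k1 : 0 ≤ kap ν1 (lyap ν1 (U1ᵀ * sgn β * U1)) :=
    Finset.sum_nonneg fun i _ => Finset.sum_nonneg fun j _ => mul_nonneg (p1 i).le (sq_nonneg _)
  have k2 : 0 ≤ kap ν2 (lyap ν2 (U2ᵀ * sgn β * U2)) :=
    Finset.sum_nonneg fun i _ => Finset.sum_nonneg fun j _ => mul_nonneg (p2 i).le (sq_nonneg _)
  simp only [Psi, Fintype.sum_bool, Bool.xor_true, Bool.xor_false, Bool.not_true,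
    Bool.not_false] at g0 g1 g2 ⊢
  linarith

end Vale.Agent.P075
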