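import Mathlib

/-! Cutting an integral over a box into translates of one small cube. -/

namespace Vale.Agent.P075

open MeasureTheory Set Finset

/-- The small cube. -/
def cube (η : ℝ) : Set (ℝ × ℝ × ℝ) := Set.Ico 0 η ×ˢ Set.Ico 0 η ×ˢ Set.Ico 0 η

lemma measurableSet_box (a b c d e f : ℝ) :
    MeasurableSet (Set.Ico a b ×ˢ Set.Ico c d ×ˢ Set.Ico e f : Set (ℝ × ℝ × ℝ)) :=
  measurableSet_Ico.prod (measurableSet_Ico.prod measurableSet_Ico)

lemma volume_box_ne_top (a b c d e f : ℝ) :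
    volume (Set.Ico a b ×ˢ Set.Ico c d ×ˢ Set.Ico e f : Set (ℝ × ℝ × ℝ)) ≠ ⊤ := by
  rw [Measure.volume_eq_prod, Measure.prod_prod, Measure.volume_eq_prod, Measure.prod_prod]
  simp only [Real.volume_Ico]
  exact ENNReal.mul_ne_top ENNReal.ofReal_ne_top
    (ENNReal.mul_ne_top ENNReal.ofReal_ne_top ENNReal.ofReal_ne_top)

lemma integrableOn_box {G : ℝ × ℝ × ℝ → ℝ} (hG : Measurable G) {M : ℝ} (hb : ∀ x, |G x| ≤ M)
    (a b c d e f : ℝ) :
    IntegrableOn G (Set.Ico a b ×ˢ Set.Ico c d ×ˢ Set.Ico e f) :=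
  Measure.integrableOn_of_bounded (M := M) (volume_box_ne_top a b c d e f)
    hG.aestronglyMeasurable (ae_of_all _ fun x => by simpa using hb x)

lemma indicator_cells {η : ℝ} (hη : 0 < η) (a m : ℕ) (x : ℝ) :
    (Set.Ico (η * a) (η * (a + m))).indicator (1 : ℝ → ℝ) x
      = ∑ i ∈ range m, (Set.Ico (η * (a + i)) (η * (a + i) + η)).indicator (1 : ℝ → ℝ) x := by
  induction m with
  | zero => simp
  | succ m ih =>
    rw [sum_range_succ, ← ih]
    have h1 : η * a ≤ η * (a + m) := by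
      have : (0 : ℝ) ≤ m := Nat.cast_nonneg m
      nlinarith
    have h2 : η * (a + ((m + 1 : ℕ) : ℝ)) = η * (a + m) + η := by push_cast; ring
    rw [h2]
    simp only [Set.indicator_apply, Set.mem_Ico, Pi.one_apply]
    by_cases c1 : η * a ≤ x <;> by_cases c2 : x < η * (a + m) <;>
      by_cases c3 : x < η * (a + m) + η <;> simp [c1, c2, c3, not_lt.1, not_le.2] <;>
      linarith

lemma box_integral {G : ℝ × ℝ × ℝ → ℝ} (hG : Measurable G) {M : ℝ} (hb : ∀ x, |G x| ≤ M) {η : ℝ}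
    (hη : 0 < η) (a0 a1 a2 m0 m1 m2 : ℕ) :
    ∫ x in Set.Ico (η * a0) (η * (a0 + m0)) ×ˢ Set.Ico (η * a1) (η * (a1 + m1))
        ×ˢ Set.Ico (η * a2) (η * (a2 + m2)), G x
      = ∫ t in cube η, ∑ i ∈ range m0, ∑ j ∈ range m1, ∑ l ∈ range m2,
          G (η * (a0 + i) + t.1, η * (a1 + j) + t.2.1, η * (a2 + l) + t.2.2) := by
  have hint : ∀ c0 c1 c2 : ℝ, Integrable
      (fun t : ℝ × ℝ × ℝ => G (c0 + t.1, c1 + t.2.1, c2 + t.2.2)) (volume.restrict (cube η)) := by
    intro c0 c1 c2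
    exact integrableOn_box (hG.comp (by fun_prop)) (fun x => hb _) _ _ _ _ _ _
  have hcell : ∀ c : ℝ × ℝ × ℝ, ∫ t in cube η, G (c.1 + t.1, c.2.1 + t.2.1, c.2.2 + t.2.2)
      = ∫ x, (Set.Ico c.1 (c.1 + η) ×ˢ Set.Ico c.2.1 (c.2.1 + η)
        ×ˢ Set.Ico c.2.2 (c.2.2 + η)).indicator G x := by
    intro c
    have mp : MeasurePreserving (fun x : ℝ × ℝ × ℝ => c + x) volume volume :=
      (measurePreserving_add_left volume c.1).prod (measurePreserving_add_left volume c.2)
    rw [integral_indicator (measurableSet_box _ _ _ _ _ _),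
      ← mp.setIntegral_preimage_emb (measurableEmbedding_addLeft c) G]
    congr 2
    ext t
    simp [cube]
  rw [integral_finsetSum _ fun i _ => integrable_finsetSum _ fun j _ =>
    integrable_finsetSum _ fun l _ => hint _ _ _]
  have e1 : ∀ i : ℕ, ∫ t in cube η, ∑ j ∈ range m1, ∑ l ∈ range m2,
      G (η * (a0 + i) + t.1, η * (a1 + j) + t.2.1, η * (a2 + l) + t.2.2)
      = ∑ j ∈ range m1, ∑ l ∈ range m2, ∫ x, (Set.Ico (η * (a0 + i)) (η * (a0 + i) + η)
        ×ˢ Set.Ico (η * (a1 + j)) (η * (a1 + j) + η)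
        ×ˢ Set.Ico (η * (a2 + l)) (η * (a2 + l) + η)).indicator G x := by
    intro i
    rw [integral_finsetSum _ fun j _ =>
      integrable_finsetSum _ fun l _ => hint _ _ _]
    refine Finset.sum_congr rfl fun j _ => ?_
    rw [integral_finsetSum _ fun l _ => hint _ _ _]
    refine Finset.sum_congr rfl fun l _ => ?_
    exact hcell (η * (a0 + i), η * (a1 + j), η * (a2 + l))
  simp only [e1]
  have hint2 : ∀ a b c d e f : ℝ,
      Integrable ((Set.Ico a b ×ˢ Set.Ico c d ×ˢ Set.Ico e f).indicator G) := fun a b c d e f =>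
    (integrable_indicator_iff (measurableSet_box _ _ _ _ _ _)).2 (integrableOn_box hG hb _ _ _ _ _ _)
  have e2 : ∀ i j : ℕ, ∑ l ∈ range m2, ∫ x, (Set.Ico (η * (a0 + i)) (η * (a0 + i) + η)
        ×ˢ Set.Ico (η * (a1 + j)) (η * (a1 + j) + η)
        ×ˢ Set.Ico (η * (a2 + l)) (η * (a2 + l) + η)).indicator G x
      = ∫ x, ∑ l ∈ range m2, (Set.Ico (η * (a0 + i)) (η * (a0 + i) + η)
        ×ˢ Set.Ico (η * (a1 + j)) (η * (a1 + j) + η)
        ×ˢ Set.Ico (η * (a2 + l)) (η * (a2 + l) + η)).indicator G x := fun i j =>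
    (integral_finsetSum _ fun l _ => hint2 _ _ _ _ _ _).symm
  simp only [e2]
  have e3 : ∀ i : ℕ, ∑ j ∈ range m1, ∫ x, ∑ l ∈ range m2,
      (Set.Ico (η * (a0 + i)) (η * (a0 + i) + η)
        ×ˢ Set.Ico (η * (a1 + j)) (η * (a1 + j) + η)
        ×ˢ Set.Ico (η * (a2 + l)) (η * (a2 + l) + η)).indicator G x
      = ∫ x, ∑ j ∈ range m1, ∑ l ∈ range m2, (Set.Ico (η * (a0 + i)) (η * (a0 + i) + η)
        ×ˢ Set.Ico (η * (a1 + j)) (η * (a1 + j) + η)
        ×ˢ Set.Ico (η * (a2 + l)) (η * (a2 + l) + η)).indicator G x := fun i =>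
    (integral_finsetSum _ fun j _ => integrable_finsetSum _ fun l _ => hint2 _ _ _ _ _ _).symm
  simp only [e3]
  rw [← integral_finsetSum _ fun i _ => integrable_finsetSum _ fun j _ =>
    integrable_finsetSum _ fun l _ => hint2 _ _ _ _ _ _,
    ← integral_indicator (measurableSet_box _ _ _ _ _ _)]
  congr 1
  funext x
  have ind : ∀ A B C : Set ℝ, (A ×ˢ B ×ˢ C).indicator G x
      = A.indicator (1 : ℝ → ℝ) x.1 * (B.indicator (1 : ℝ → ℝ) x.2.1
        * (C.indicator (1 : ℝ → ℝ) x.2.2 * G x)) := by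
    intro A B C
    by_cases h0 : x.1 ∈ A <;> by_cases h1 : x.2.1 ∈ B <;> by_cases h2 : x.2.2 ∈ C <;>
      simp [h0, h1, h2]
  simp only [ind]
  rw [indicator_cells hη, indicator_cells hη, indicator_cells hη]
  rw [Finset.sum_mul]
  refine Finset.sum_congr rfl fun i _ => ?_
  rw [Finset.sum_mul, Finset.mul_sum]
  refine Finset.sum_congr rfl fun j _ => ?_
  rw [Finset.sum_mul, Finset.mul_sum, Finset.mul_sum]

lemma restrict_box (A B C : Set ℝ) :
    (volume : Measure (ℝ × ℝ × ℝ)).restrict (A ×ˢ B ×ˢ C)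
      = (volume.restrict A).prod ((volume.restrict B).prod (volume.restrict C)) := by
  rw [Measure.prod_restrict, Measure.prod_restrict]
  rfl

lemma restrict_rect (A B : Set ℝ) :
    (volume : Measure (ℝ × ℝ)).restrict (A ×ˢ B) = (volume.restrict A).prod (volume.restrict B) := by
  rw [Measure.prod_restrict]
  rfl

lemma marg1 (g : ℝ × ℝ → ℝ) (A B C : Set ℝ) :
    ∫ x in A ×ˢ B ×ˢ C, g (x.2.1, x.2.2) = volume.real A * ∫ y in B ×ˢ C, g y := by
  rw [restrict_box, restrict_rect]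
  have := integral_fun_snd (μ := volume.restrict A)
    (ν := (volume.restrict B).prod (volume.restrict C)) g
  simpa using this

lemma marg0 (g : ℝ × ℝ → ℝ) (A B C : Set ℝ) :
    ∫ x in A ×ˢ B ×ˢ C, g (x.1, x.2.1) = volume.real C * ∫ y in A ×ˢ B, g y := by
  rw [restrict_box, restrict_rect,
    ← (measurePreserving_prodAssoc (volume.restrict A) (volume.restrict B)
      (volume.restrict C)).integral_comp']
  have := integral_fun_fst (μ := (volume.restrict A).prod (volume.restrict B))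
    (ν := volume.restrict C) g
  simpa [MeasurableEquiv.prodAssoc] using this

lemma marg2 (g : ℝ × ℝ → ℝ) (A B C : Set ℝ) :
    ∫ x in A ×ˢ B ×ˢ C, g (x.2.2, x.1) = volume.real B * ∫ y in C ×ˢ A, g y := by
  rw [restrict_box, restrict_rect, ← integral_prod_swap]
  have h1 := (measurePreserving_prodAssoc (volume.restrict B) (volume.restrict C)
      (volume.restrict A)).integral_comp' (fun z : ℝ × ℝ × ℝ => g z.2)
  have h2 := integral_fun_snd (μ := volume.restrict B)
    (ν := (volume.restrict C).prod (volume.restrict A)) g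
  rw [h2] at h1
  simpa [MeasurableEquiv.prodAssoc] using h1

end Vale.Agent.P075
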