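import Vale.Agent.P075.Bellman

/-! Telescoping the one-step inequality over all scales (discrete model). -/

namespace Vale.Agent.P075

open Matrix Finset

/-- Binary words of length `k`. -/
def T : ℕ → Type
  | 0 => Unit
  | k + 1 => Bool × T k

instance instFintypeT : (k : ℕ) → Fintype (T k)
  | 0 => inferInstanceAs (Fintype Unit)
  | k + 1 => @instFintypeProd Bool (T k) _ (instFintypeT k)

instance instDecEqT : (k : ℕ) → DecidableEq (T k)
  | 0 => inferInstanceAs (DecidableEq Unit)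
  | k + 1 => @instDecidableEqProd Bool (T k) _ (instDecEqT k)

/-- The number with the given binary word. -/
def enc : (k : ℕ) → T k → ℕ
  | 0, _ => 0
  | k + 1, x => 2 ^ k * x.1.toNat + enc k x.2

lemma enc_lt : ∀ (k : ℕ) (x : T k), enc k x < 2 ^ k
  | 0, _ => by simp [enc]
  | k + 1, x => by
    have := enc_lt k x.2
    have h2 : x.1.toNat ≤ 1 := Bool.toNat_le _
    simp only [enc, pow_succ]
    nlinarith

lemma sum_enc : ∀ (k : ℕ) (g : ℕ → ℝ), ∑ s : T k, g (enc k s) = ∑ a ∈ range (2 ^ k), g a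
  | 0, g => by
    show ∑ s : Unit, g (enc 0 s) = _
    simp [enc]
  | k + 1, g => by
    show ∑ s : Bool × T k, g (enc (k + 1) s) = _
    rw [Fintype.sum_prod_type, Fintype.sum_bool, pow_succ, mul_two, sum_range_add]
    simp only [enc, Bool.toNat_true, Bool.toNat_false, mul_one, mul_zero, zero_add]
    rw [sum_enc k g, sum_enc k (fun a => g (2 ^ k + a)), add_comm]

/-- The block of `f` on a pair of dyadic intervals. -/
def mat (f : ℕ → ℕ → ℝ) (k n m : ℕ) : Matrix (T k) (T k) ℝ :=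
  Matrix.of fun s t => f (2 ^ k * n + enc k s) (2 ^ k * m + enc k t)

/-- The same block, with the index type unfolded once. -/
def matS (f : ℕ → ℕ → ℝ) (k n m : ℕ) : Matrix (Bool × T k) (Bool × T k) ℝ := mat f (k + 1) n m

lemma blk_mat (f : ℕ → ℕ → ℝ) (k n m : ℕ) (i j : Bool) :
    blk (matS f k n m) i j = mat f k (Nat.bit i n) (Nat.bit j m) := by
  ext s t
  show f (2 ^ (k + 1) * n + (2 ^ k * i.toNat + enc k s)) (2 ^ (k + 1) * m + (2 ^ k * j.toNat + enc k t))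
    = f (2 ^ k * Nat.bit i n + enc k s) (2 ^ k * Nat.bit j m + enc k t)
  rw [Nat.bit_val, Nat.bit_val]
  congr 1 <;> ring

/-- The discrete Haar function on `[0, 2^(k+1))`. -/
def hd (k a : ℕ) : ℝ := if a < 2 ^ k then 1 else -1

/-- The discrete (unnormalised) local form. -/
def Ld (f0 f1 f2 : ℕ → ℕ → ℝ) (k n0 n1 n2 : ℕ) : ℝ :=
  ∑ a ∈ range (2 ^ (k + 1)), ∑ b ∈ range (2 ^ (k + 1)), ∑ c ∈ range (2 ^ (k + 1)),
    f0 (2 ^ (k + 1) * n0 + a) (2 ^ (k + 1) * n1 + b) * f1 (2 ^ (k + 1) * n1 + b) (2 ^ (k + 1) * n2 + c)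
      * f2 (2 ^ (k + 1) * n2 + c) (2 ^ (k + 1) * n0 + a) * (hd k a * hd k b * hd k c)

lemma hd_enc (k : ℕ) (x : Bool × T k) : hd k (enc (k + 1) x) = if x.1 then -1 else 1 := by
  have := enc_lt k x.2
  rcases x with ⟨b, t⟩
  cases b
  · simp only [hd, enc, Bool.toNat_false, mul_zero, zero_add] at this ⊢
    simp [this]
  · simp [hd, enc]

lemma Ld_eq (f0 f1 f2 : ℕ → ℕ → ℝ) (k n0 n1 n2 : ℕ) :
    Ld f0 f1 f2 k n0 n1 n2 = trace (sgn (T k) * matS f0 k n0 n1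
      * sgn (T k) * matS f1 k n1 n2 * sgn (T k) * matS f2 k n2 n0) := by
  have key : ∀ (d : Bool × T k → ℝ) (A B C : Matrix (Bool × T k) (Bool × T k) ℝ),
      trace (diagonal d * A * diagonal d * B * diagonal d * C)
        = ∑ a, ∑ b, ∑ c, A a b * B b c * C c a * (d a * d b * d c) := by
    intro d A B C
    simp only [trace, Matrix.diag]
    refine Finset.sum_congr rfl fun a _ => ?_
    rw [mul_apply, Finset.sum_comm]
    refine Finset.sum_congr rfl fun c _ => ?_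
    rw [mul_diagonal, mul_apply, Finset.sum_mul, Finset.sum_mul]
    refine Finset.sum_congr rfl fun b _ => ?_
    rw [mul_diagonal, diagonal_mul]
    ring
  rw [sgn, key, Ld, ← sum_enc (k + 1)]
  refine Finset.sum_congr rfl fun a _ => ?_
  rw [← sum_enc (k + 1)]
  refine Finset.sum_congr rfl fun b _ => ?_
  rw [← sum_enc (k + 1)]
  refine Finset.sum_congr rfl fun c _ => ?_
  rw [hd_enc k a, hd_enc k b, hd_enc k c]
  rfl

/-- The total Bellman energy at scale `k` over `2^j` intervals. -/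
noncomputable def En (f0 f1 f2 : ℕ → ℕ → ℝ) (e : ℝ) (k j : ℕ) : ℝ :=
  (∑ n0 ∈ range (2 ^ j), ∑ n1 ∈ range (2 ^ j),
    Psi (mat f0 k n0 n1) (mat f1 k n1 (n0 ^^^ n1)) (mat f2 k (n0 ^^^ n1) n0) (2 ^ k * e)) / 2 ^ k

lemma sum_range_bit (m : ℕ) (g : ℕ → ℝ) :
    ∑ n ∈ range (2 * m), g n = ∑ n ∈ range m, ∑ i : Bool, g (Nat.bit i n) := by
  induction m with
  | zero => simp
  | succ m ih =>
    rw [mul_add, mul_one, sum_range_succ, sum_range_succ, sum_range_succ, ih, Fintype.sum_bool]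
    simp only [Nat.bit_val, Bool.toNat_true, Bool.toNat_false, add_zero]
    ring

/-- The sum of the normalised local forms at one scale. -/
noncomputable def Lev (f0 f1 f2 : ℕ → ℕ → ℝ) (k j : ℕ) : ℝ :=
  ∑ n0 ∈ range (2 ^ j), ∑ n1 ∈ range (2 ^ j), |Ld f0 f1 f2 k n0 n1 (n0 ^^^ n1)| / 2 ^ (k + 1)

lemma step (f0 f1 f2 : ℕ → ℕ → ℝ) {e : ℝ} (he : 0 < e) (k j : ℕ) :
    Lev f0 f1 f2 k j + En f0 f1 f2 e (k + 1) j ≤ En f0 f1 f2 e k (j + 1) := by
  have hE : En f0 f1 f2 e k (j + 1) = ∑ n0 ∈ range (2 ^ j), ∑ n1 ∈ range (2 ^ j),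
      (2 * ∑ i : Bool, ∑ l : Bool, Psi (mat f0 k (Nat.bit i n0) (Nat.bit l n1))
        (mat f1 k (Nat.bit l n1) (Nat.bit (xor i l) (n0 ^^^ n1)))
        (mat f2 k (Nat.bit (xor i l) (n0 ^^^ n1)) (Nat.bit i n0)) (2 ^ k * e)) / 2 ^ (k + 1) := by
    rw [En, pow_succ' 2 j, sum_range_bit, Finset.sum_div]
    refine Finset.sum_congr rfl fun n0 _ => ?_
    simp only [sum_range_bit]
    rw [Finset.sum_comm, Finset.sum_div]
    refine Finset.sum_congr rfl fun n1 _ => ?_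
    simp only [Nat.xor_bit]
    rw [pow_succ]
    field_simp
  rw [hE, Lev, En, Finset.sum_div, ← Finset.sum_add_distrib]
  refine Finset.sum_le_sum fun n0 _ => ?_
  rw [Finset.sum_div, ← Finset.sum_add_distrib]
  refine Finset.sum_le_sum fun n1 _ => ?_
  rw [← add_div]
  refine div_le_div_of_nonneg_right ?_ (by positivity)
  have h := one_step (β := T k) (matS f0 k n0 n1) (matS f1 k n1 (n0 ^^^ n1))
    (matS f2 k (n0 ^^^ n1) n0) (e := 2 ^ k * e) (by positivity)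
  simp only [blk_mat] at h
  rw [← Ld_eq, ← mul_assoc, ← pow_succ'] at h
  exact h

lemma telescope (f0 f1 f2 : ℕ → ℕ → ℝ) {e : ℝ} (he : 0 < e) (k : ℕ) : ∀ j : ℕ,
    ∑ i ∈ range k, Lev f0 f1 f2 i (j + k - 1 - i) + En f0 f1 f2 e k j ≤ En f0 f1 f2 e 0 (j + k) := by
  induction k with
  | zero => intro j; simp
  | succ k ih =>
    intro j
    have h1 := ih (j + 1)
    have h2 := step f0 f1 f2 he k j
    rw [sum_range_succ]
    have e1 : j + (k + 1) - 1 - k = j := by omega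
    have e2 : j + 1 + k = j + (k + 1) := by omega
    rw [e1]
    rw [e2] at h1
    linarith

lemma en_nonneg (f0 f1 f2 : ℕ → ℕ → ℝ) (e : ℝ) (k j : ℕ) : 0 ≤ En f0 f1 f2 e k j := by
  refine div_nonneg (Finset.sum_nonneg fun _ _ => Finset.sum_nonneg fun _ _ => ?_) (by positivity)
  exact add_nonneg (add_nonneg (phi_nonneg _) (phi_nonneg _)) (phi_nonneg _)

lemma phi_unit (A C : Matrix Unit Unit ℝ) {η : ℝ} (hη : 0 < η) :
    Phi (vtx A C (η ^ 2)) ≤ 9 * (|A () ()| ^ 3 + |C () ()| ^ 3 + η ^ 3) := by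
  obtain ⟨U, ν, h1, _, hν, h3, h4⟩ := phi_spec (vtx_pd A C (by positivity : 0 < η ^ 2))
  have e1 := congrFun (congrFun h1 ()) ()
  have e2 := congrFun (congrFun h3 ()) ()
  simp [vtx, mul_apply] at e1 e2
  have e3 : ν () ^ 2 = |A () ()| ^ 2 + |C () ()| ^ 2 + η ^ 2 := by
    rw [sq_abs, sq_abs]
    have : U () () * U () () = 1 := by
      rcases mul_self_eq_one_iff.1 e1 with h | h <;> simp [h]
    nlinarith
  rw [h4]
  simp only [Finset.univ_unique, Finset.sum_singleton]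
  show ν () ^ 3 ≤ _
  have ha := abs_nonneg (A () ())
  have hc := abs_nonneg (C () ())
  set a := |A () ()|
  set c := |C () ()|
  have h5 : ν () ≤ a + c + η := by
    refine le_of_sq_le_sq ?_ (by positivity)
    nlinarith [mul_nonneg ha hc, mul_nonneg ha hη.le, mul_nonneg hc hη.le]
  calc ν () ^ 3 ≤ (a + c + η) ^ 3 := pow_le_pow_left₀ (hν ()).le h5 3
    _ ≤ _ := by
      nlinarith [mul_nonneg (add_nonneg ha hc) (sq_nonneg (a - c)),
        mul_nonneg (add_nonneg ha hη.le) (sq_nonneg (a - η)),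
        mul_nonneg (add_nonneg hc hη.le) (sq_nonneg (c - η)),
        mul_nonneg ha (sq_nonneg (c - η)), mul_nonneg hc (sq_nonneg (a - η)),
        mul_nonneg hη.le (sq_nonneg (a - c))]

lemma sum_xor (K m : ℕ) (hm : m < 2 ^ K) (g : ℕ → ℝ) :
    ∑ n ∈ range (2 ^ K), g (n ^^^ m) = ∑ n ∈ range (2 ^ K), g n := by
  refine Finset.sum_nbij' (fun n => n ^^^ m) (fun n => n ^^^ m) ?_ ?_ ?_ ?_ ?_
  · intro n hn
    exact mem_range.2 (Nat.xor_lt_two_pow (mem_range.1 hn) hm)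
  · intro n hn
    exact mem_range.2 (Nat.xor_lt_two_pow (mem_range.1 hn) hm)
  · intro n _
    simp
  · intro n _
    simp
  · intro n _
    rfl

/-- Sum of cubes over the grid. -/
def cubes (f : ℕ → ℕ → ℝ) (K : ℕ) : ℝ := ∑ a ∈ range (2 ^ K), ∑ b ∈ range (2 ^ K), |f a b| ^ 3

lemma en_zero (f0 f1 f2 : ℕ → ℕ → ℝ) {η : ℝ} (hη : 0 < η) (K : ℕ) :
    En f0 f1 f2 (η ^ 2) 0 K
      ≤ 18 * (cubes f0 K + cubes f1 K + cubes f2 K) + 27 * (2 ^ K * 2 ^ K) * η ^ 3 := by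
  have c1 : ∑ n0 ∈ range (2 ^ K), ∑ n1 ∈ range (2 ^ K), |f1 n1 (n0 ^^^ n1)| ^ 3 = cubes f1 K := by
    rw [Finset.sum_comm]
    refine Finset.sum_congr rfl fun n1 h1 => ?_
    exact sum_xor K n1 (mem_range.1 h1) (fun n => |f1 n1 n| ^ 3)
  have c2 : ∑ n0 ∈ range (2 ^ K), ∑ n1 ∈ range (2 ^ K), |f2 (n0 ^^^ n1) n0| ^ 3 = cubes f2 K := by
    rw [cubes, Finset.sum_comm (f := fun a b => |f2 a b| ^ 3)]
    refine Finset.sum_congr rfl fun n0 h0 => ?_
    simp only [Nat.xor_comm n0]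
    exact sum_xor K n0 (mem_range.1 h0) (fun n => |f2 n n0| ^ 3)
  have : En f0 f1 f2 (η ^ 2) 0 K ≤ ∑ n0 ∈ range (2 ^ K), ∑ n1 ∈ range (2 ^ K),
      (18 * |f0 n0 n1| ^ 3 + 18 * |f1 n1 (n0 ^^^ n1)| ^ 3 + 18 * |f2 (n0 ^^^ n1) n0| ^ 3
        + 27 * η ^ 3) := by
    rw [En, pow_zero, div_one, one_mul]
    refine Finset.sum_le_sum fun n0 _ => Finset.sum_le_sum fun n1 _ => ?_
    have p0 := phi_unit (mat f0 0 n0 n1) (mat f2 0 (n0 ^^^ n1) n0) hη
    have p1 := phi_unit (mat f1 0 n1 (n0 ^^^ n1)) (mat f0 0 n0 n1) hη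
    have p2 := phi_unit (mat f2 0 (n0 ^^^ n1) n0) (mat f1 0 n1 (n0 ^^^ n1)) hη
    have m0 : ∀ (f : ℕ → ℕ → ℝ) (a b : ℕ), mat f 0 a b () () = f a b := by
      intro f a b
      show f (2 ^ 0 * a + 0) (2 ^ 0 * b + 0) = f a b
      simp
    rw [m0, m0] at p0 p1 p2
    have : Psi (mat f0 0 n0 n1) (mat f1 0 n1 (n0 ^^^ n1)) (mat f2 0 (n0 ^^^ n1) n0) (η ^ 2)
        ≤ 9 * (|f0 n0 n1| ^ 3 + |f2 (n0 ^^^ n1) n0| ^ 3 + η ^ 3)
          + 9 * (|f1 n1 (n0 ^^^ n1)| ^ 3 + |f0 n0 n1| ^ 3 + η ^ 3)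
          + 9 * (|f2 (n0 ^^^ n1) n0| ^ 3 + |f1 n1 (n0 ^^^ n1)| ^ 3 + η ^ 3) :=
      add_le_add (add_le_add p0 p1) p2
    linarith
  refine this.trans (le_of_eq ?_)
  simp only [Finset.sum_add_distrib, ← Finset.mul_sum, c1, c2, sum_const, card_range, nsmul_eq_mul]
  rw [cubes.eq_1 f0]
  push_cast
  ring

theorem discrete_bound (f0 f1 f2 : ℕ → ℕ → ℝ) (K : ℕ) :
    ∑ i ∈ range K, Lev f0 f1 f2 i (K - 1 - i) ≤ 18 * (cubes f0 K + cubes f1 K + cubes f2 K) := by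
  have main : ∀ η : ℝ, 0 < η → ∑ i ∈ range K, Lev f0 f1 f2 i (K - 1 - i)
      ≤ 18 * (cubes f0 K + cubes f1 K + cubes f2 K) + 27 * (2 ^ K * 2 ^ K) * η ^ 3 := by
    intro η hη
    have h1 := telescope f0 f1 f2 (by positivity : 0 < η ^ 2) K 0
    have h2 := en_zero f0 f1 f2 hη K
    have h3 := en_nonneg f0 f1 f2 (η ^ 2) K 0
    simp only [zero_add] at h1
    linarith
  have hc : Continuous fun η : ℝ =>
      18 * (cubes f0 K + cubes f1 K + cubes f2 K) + 27 * (2 ^ K * 2 ^ K) * η ^ 3 := by fun_prop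
  have ht := (hc.tendsto 0).mono_left (nhdsWithin_le_nhds (s := Set.Ioi 0))
  have := ge_of_tendsto ht (eventually_nhdsWithin_of_forall fun η hη => main η hη)
  simpa using this

end Vale.Agent.P075
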