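import Vale.Agent.P075.Defs
import Vale.Agent.P075.Discrete
import Vale.Agent.P075.Box

/-! From the discrete bound to the bound for measurable functions. -/

namespace Vale.Agent.P075

open MeasureTheory Finset

/-- Sampling a function on a shifted grid. -/
def samp (F : ℝ × ℝ → ℝ) (η s t : ℝ) : ℕ → ℕ → ℝ := fun a b => F (η * a + s, η * b + t)

lemma zpow_scale (k0 : ℤ) (i : ℕ) : (2 : ℝ) ^ (k0 + 1 + i) = 2 ^ k0 * (2 * 2 ^ i) := by
  rw [zpow_add₀ two_ne_zero, zpow_add₀ two_ne_zero, zpow_natCast, zpow_one, mul_assoc]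

lemma haar_cell (k0 : ℤ) (i n a : ℕ) (ha : a < 2 ^ (i + 1)) {t : ℝ} (h0 : 0 ≤ t)
    (h1 : t < (2 : ℝ) ^ k0) :
    haar (k0 + 1 + i) n ((2 : ℝ) ^ k0 * (((2 ^ (i + 1) * n : ℕ) : ℝ) + a) + t) = hd i a := by
  have hη : (0 : ℝ) < 2 ^ k0 := by positivity
  rw [haar, zpow_scale]
  set η : ℝ := 2 ^ k0
  have hcast : ((2 ^ (i + 1) * n : ℕ) : ℝ) = 2 * 2 ^ i * n := by push_cast; ring
  rw [hcast]
  have ha0 : (0 : ℝ) ≤ a := Nat.cast_nonneg a
  have ha2 : (a : ℝ) + 1 ≤ 2 * 2 ^ i := by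
    have : a + 1 ≤ 2 ^ (i + 1) := ha
    calc (a : ℝ) + 1 = ((a + 1 : ℕ) : ℝ) := by push_cast; ring
      _ ≤ ((2 ^ (i + 1) : ℕ) : ℝ) := Nat.cast_le.2 this
      _ = 2 * 2 ^ i := by push_cast; ring
  set P : ℝ := 2 ^ i with hP
  by_cases hlt : a < 2 ^ i
  · have ha1 : (a : ℝ) + 1 ≤ P := by
      have : a + 1 ≤ 2 ^ i := hlt
      calc (a : ℝ) + 1 = ((a + 1 : ℕ) : ℝ) := by push_cast; ring
        _ ≤ ((2 ^ i : ℕ) : ℝ) := Nat.cast_le.2 this
        _ = P := by push_cast; rfl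
    rw [Set.indicator_of_mem, Set.indicator_of_notMem]
    · simp [hd, hlt]
    · intro hx
      have := hx.1
      nlinarith
    · constructor <;> nlinarith
  · have ha1 : P ≤ (a : ℝ) := by
      have : 2 ^ i ≤ a := not_lt.1 hlt
      calc P = ((2 ^ i : ℕ) : ℝ) := by push_cast; rfl
        _ ≤ a := Nat.cast_le.2 this
    rw [Set.indicator_of_notMem, Set.indicator_of_mem]
    · simp [hd, hlt]
    · constructor <;> nlinarith
    · intro hx
      have := hx.2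
      nlinarith

lemma measurable_haar (k : ℤ) (n : ℕ) : Measurable (haar k n) :=
  (measurable_one.indicator measurableSet_Ico).sub (measurable_one.indicator measurableSet_Ico)

lemma abs_haar_le (k : ℤ) (n : ℕ) (x : ℝ) : |haar k n x| ≤ 1 := by
  simp only [haar, Set.indicator_apply, Pi.one_apply]
  split_ifs <;> simp

lemma abs_hd_le (k a : ℕ) : |hd k a| ≤ 1 := by
  simp only [hd]
  split_ifs <;> simp

lemma abs_prod_le {a b c d e f A B C : ℝ} (ha : |a| ≤ A) (hb : |b| ≤ B) (hc : |c| ≤ C)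
    (hd : |d| ≤ 1) (he : |e| ≤ 1) (hf : |f| ≤ 1) : |a * b * c * (d * e * f)| ≤ A * B * C := by
  have hA : 0 ≤ A := (abs_nonneg _).trans ha
  have hB : 0 ≤ B := (abs_nonneg _).trans hb
  have hC : 0 ≤ C := (abs_nonneg _).trans hc
  simp only [abs_mul]
  calc |a| * |b| * |c| * (|d| * |e| * |f|) ≤ A * B * C * (1 * 1 * 1) := by gcongr
    _ = A * B * C := by ring

variable {F0 F1 F2 : ℝ × ℝ → ℝ} {M0 M1 M2 : ℝ}

lemma localForm_eq (m0 : Measurable F0) (m1 : Measurable F1) (m2 : Measurable F2)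
    (b0 : ∀ x, |F0 x| ≤ M0) (b1 : ∀ x, |F1 x| ≤ M1) (b2 : ∀ x, |F2 x| ≤ M2)
    (k0 : ℤ) (i n0 n1 n2 : ℕ) :
    localForm F0 F1 F2 (k0 + 1 + i) n0 n1 n2 = ((2 : ℝ) ^ k0)⁻¹ * ∫ t in cube (2 ^ k0),
      Ld (samp F0 (2 ^ k0) t.1 t.2.1) (samp F1 (2 ^ k0) t.2.1 t.2.2) (samp F2 (2 ^ k0) t.2.2 t.1)
        i n0 n1 n2 / 2 ^ (i + 1) := by
  have hη : (0 : ℝ) < 2 ^ k0 := by positivity
  have hdy : ∀ n : ℕ, dyadic (k0 + 1 + i) n = Set.Ico ((2 : ℝ) ^ k0 * ((2 ^ (i + 1) * n : ℕ) : ℝ))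
      ((2 : ℝ) ^ k0 * (((2 ^ (i + 1) * n : ℕ) : ℝ) + ((2 ^ (i + 1) : ℕ) : ℝ))) := by
    intro n
    rw [dyadic, zpow_scale]
    congr 1 <;> push_cast <;> ring
  have hG : Measurable fun x : ℝ × ℝ × ℝ => F0 (x.1, x.2.1) * F1 (x.2.1, x.2.2) * F2 (x.2.2, x.1)
      * (haar (k0 + 1 + i) n0 x.1 * haar (k0 + 1 + i) n1 x.2.1 * haar (k0 + 1 + i) n2 x.2.2) := by
    have := measurable_haar (k0 + 1 + i) n0
    have := measurable_haar (k0 + 1 + i) n1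
    have := measurable_haar (k0 + 1 + i) n2
    fun_prop
  rw [localForm, hdy, hdy, hdy, box_integral hG (M := M0 * M1 * M2) (fun x => abs_prod_le (b0 _)
    (b1 _) (b2 _) (abs_haar_le _ _ _) (abs_haar_le _ _ _) (abs_haar_le _ _ _)) hη,
    integral_div, zpow_neg, zpow_scale]
  rw [setIntegral_congr_fun (s := cube (2 ^ k0))
    (g := fun t => Ld (samp F0 (2 ^ k0) t.1 t.2.1) (samp F1 (2 ^ k0) t.2.1 t.2.2)
      (samp F2 (2 ^ k0) t.2.2 t.1) i n0 n1 n2) (measurableSet_box _ _ _ _ _ _)]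
  · field_simp
    ring
  · intro t ht
    simp only [Ld]
    refine Finset.sum_congr rfl fun a ha => Finset.sum_congr rfl fun b hb =>
      Finset.sum_congr rfl fun c hc => ?_
    rw [← haar_cell k0 i n0 a (mem_range.1 ha) ht.1.1 ht.1.2,
      ← haar_cell k0 i n1 b (mem_range.1 hb) ht.2.1.1 ht.2.1.2,
      ← haar_cell k0 i n2 c (mem_range.1 hc) ht.2.2.1 ht.2.2.2]
    simp only [samp, Nat.cast_add]

lemma integrable_Ld (m0 : Measurable F0) (m1 : Measurable F1) (m2 : Measurable F2)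
    (b0 : ∀ x, |F0 x| ≤ M0) (b1 : ∀ x, |F1 x| ≤ M1) (b2 : ∀ x, |F2 x| ≤ M2)
    (η : ℝ) (i n0 n1 n2 : ℕ) :
    Integrable (fun t : ℝ × ℝ × ℝ => Ld (samp F0 η t.1 t.2.1) (samp F1 η t.2.1 t.2.2)
      (samp F2 η t.2.2 t.1) i n0 n1 n2) (volume.restrict (cube η)) := by
  simp only [Ld]
  refine integrable_finsetSum _ fun a _ => integrable_finsetSum _ fun b _ =>
    integrable_finsetSum _ fun c _ => ?_
  simp only [samp]
  exact integrableOn_box (M := M0 * M1 * M2) (by fun_prop) (fun x => abs_prod_le (b0 _)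
    (b1 _) (b2 _) (abs_hd_le _ _) (abs_hd_le _ _) (abs_hd_le _ _)) _ _ _ _ _ _

/-- The integral of the cube of the absolute value over the quadrant. -/
noncomputable def cubeInt (F : ℝ × ℝ → ℝ) : ℝ :=
  ∫ y in Set.Ici (0 : ℝ) ×ˢ Set.Ici (0 : ℝ), |F y| ^ 3

lemma rect_le {F : ℝ × ℝ → ℝ}
    (hF : IntegrableOn (fun y => |F y| ^ 3) (Set.Ici (0 : ℝ) ×ˢ Set.Ici (0 : ℝ))) (R : ℝ) :
    ∫ y in Set.Ico (0 : ℝ) R ×ˢ Set.Ico (0 : ℝ) R, |F y| ^ 3 ≤ cubeInt F := by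
  refine setIntegral_mono_set hF (ae_of_all _ fun y => by positivity) ?_
  exact LE.le.eventuallyLE (Set.prod_mono Set.Ico_subset_Ici_self Set.Ico_subset_Ici_self)

lemma abs_cube_le {a A : ℝ} (h : |a| ≤ A) : abs (|a| ^ 3) ≤ A ^ 3 := by
  rw [abs_of_nonneg (by positivity)]
  exact pow_le_pow_left₀ (abs_nonneg _) h 3

lemma cubes0 {F : ℝ × ℝ → ℝ} {M : ℝ} (m : Measurable F) (b : ∀ x, |F x| ≤ M) {η : ℝ} (hη : 0 < η)
    (K : ℕ) : ∫ t in cube η, cubes (samp F η t.1 t.2.1) K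
      = η * ∫ y in Set.Ico (0 : ℝ) (η * 2 ^ K) ×ˢ Set.Ico (0 : ℝ) (η * 2 ^ K), |F y| ^ 3 := by
  have h := box_integral (G := fun x : ℝ × ℝ × ℝ => |F (x.1, x.2.1)| ^ 3) (by fun_prop)
    (fun x => abs_cube_le (b _)) hη 0 0 0 (2 ^ K) (2 ^ K) 1
  rw [marg0 (fun y => |F y| ^ 3)] at h
  simp only [Nat.cast_zero, mul_zero, zero_add, Nat.cast_pow, Nat.cast_ofNat, Nat.cast_one,
    mul_one, Real.volume_real_Ico, sub_zero, max_eq_left hη.le, range_one, sum_singleton] at h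
  rw [h]
  rfl

lemma cubes1 {F : ℝ × ℝ → ℝ} {M : ℝ} (m : Measurable F) (b : ∀ x, |F x| ≤ M) {η : ℝ} (hη : 0 < η)
    (K : ℕ) : ∫ t in cube η, cubes (samp F η t.2.1 t.2.2) K
      = η * ∫ y in Set.Ico (0 : ℝ) (η * 2 ^ K) ×ˢ Set.Ico (0 : ℝ) (η * 2 ^ K), |F y| ^ 3 := by
  have h := box_integral (G := fun x : ℝ × ℝ × ℝ => |F (x.2.1, x.2.2)| ^ 3) (by fun_prop)
    (fun x => abs_cube_le (b _)) hη 0 0 0 1 (2 ^ K) (2 ^ K)
  rw [marg1 (fun y => |F y| ^ 3)] at h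
  simp only [Nat.cast_zero, mul_zero, zero_add, Nat.cast_pow, Nat.cast_ofNat, Nat.cast_one,
    mul_one, Real.volume_real_Ico, sub_zero, max_eq_left hη.le, range_one, sum_singleton] at h
  rw [h]
  rfl

lemma cubes2 {F : ℝ × ℝ → ℝ} {M : ℝ} (m : Measurable F) (b : ∀ x, |F x| ≤ M) {η : ℝ} (hη : 0 < η)
    (K : ℕ) : ∫ t in cube η, cubes (samp F η t.2.2 t.1) K
      = η * ∫ y in Set.Ico (0 : ℝ) (η * 2 ^ K) ×ˢ Set.Ico (0 : ℝ) (η * 2 ^ K), |F y| ^ 3 := by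
  have h := box_integral (G := fun x : ℝ × ℝ × ℝ => |F (x.2.2, x.1)| ^ 3) (by fun_prop)
    (fun x => abs_cube_le (b _)) hη 0 0 0 (2 ^ K) 1 (2 ^ K)
  rw [marg2 (fun y => |F y| ^ 3)] at h
  simp only [Nat.cast_zero, mul_zero, zero_add, Nat.cast_pow, Nat.cast_ofNat, Nat.cast_one,
    mul_one, Real.volume_real_Ico, sub_zero, max_eq_left hη.le, range_one, sum_singleton] at h
  rw [h]
  refine setIntegral_congr_fun (measurableSet_box _ _ _ _ _ _) fun t _ => ?_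
  simp only [cubes, samp]
  exact Finset.sum_comm

lemma integrable_cubes {F : ℝ × ℝ → ℝ} {M : ℝ} (m : Measurable F) (b : ∀ x, |F x| ≤ M) (η : ℝ)
    (K : ℕ) {u v : ℝ × ℝ × ℝ → ℝ} (hu : Measurable u) (hv : Measurable v) :
    Integrable (fun t : ℝ × ℝ × ℝ => cubes (samp F η (u t) (v t)) K)
      (volume.restrict (cube η)) := by
  simp only [cubes]
  refine integrable_finsetSum _ fun a _ => integrable_finsetSum _ fun c _ => ?_
  simp only [samp]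
  exact integrableOn_box (M := M ^ 3) (by fun_prop) (fun x => abs_cube_le (b _)) _ _ _ _ _ _

theorem cont_bound (m0 : Measurable F0) (m1 : Measurable F1) (m2 : Measurable F2)
    (b0 : ∀ x, |F0 x| ≤ M0) (b1 : ∀ x, |F1 x| ≤ M1) (b2 : ∀ x, |F2 x| ≤ M2)
    (i0 : IntegrableOn (fun y => |F0 y| ^ 3) (Set.Ici (0 : ℝ) ×ˢ Set.Ici (0 : ℝ)))
    (i1 : IntegrableOn (fun y => |F1 y| ^ 3) (Set.Ici (0 : ℝ) ×ˢ Set.Ici (0 : ℝ)))
    (i2 : IntegrableOn (fun y => |F2 y| ^ 3) (Set.Ici (0 : ℝ) ×ˢ Set.Ici (0 : ℝ)))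
    (k0 : ℤ) (K : ℕ) :
    ∑ i ∈ range K, ∑ n0 ∈ range (2 ^ (K - 1 - i)), ∑ n1 ∈ range (2 ^ (K - 1 - i)),
      |localForm F0 F1 F2 (k0 + 1 + i) n0 n1 (n0 ^^^ n1)|
      ≤ 18 * (cubeInt F0 + cubeInt F1 + cubeInt F2) := by
  have hη : (0 : ℝ) < 2 ^ k0 := by positivity
  set η : ℝ := 2 ^ k0 with hηdef
  have hI : ∀ i n0 n1 n2 : ℕ, Integrable (fun t : ℝ × ℝ × ℝ => |Ld (samp F0 η t.1 t.2.1)
      (samp F1 η t.2.1 t.2.2) (samp F2 η t.2.2 t.1) i n0 n1 n2| / 2 ^ (i + 1))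
      (volume.restrict (cube η)) := fun i n0 n1 n2 =>
    (integrable_Ld m0 m1 m2 b0 b1 b2 η i n0 n1 n2).abs.div_const _
  have hL : ∀ i j : ℕ, Integrable (fun t : ℝ × ℝ × ℝ => Lev (samp F0 η t.1 t.2.1)
      (samp F1 η t.2.1 t.2.2) (samp F2 η t.2.2 t.1) i j) (volume.restrict (cube η)) := by
    intro i j
    simp only [Lev]
    exact integrable_finsetSum _ fun a _ => integrable_finsetSum _ fun b _ => hI _ _ _ _
  have s1 : ∀ i j : ℕ, ∑ n0 ∈ range (2 ^ j), ∑ n1 ∈ range (2 ^ j),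
      |localForm F0 F1 F2 (k0 + 1 + i) n0 n1 (n0 ^^^ n1)|
      ≤ η⁻¹ * ∫ t in cube η, Lev (samp F0 η t.1 t.2.1) (samp F1 η t.2.1 t.2.2)
        (samp F2 η t.2.2 t.1) i j := by
    intro i j
    simp only [Lev]
    rw [integral_finsetSum _ fun a _ => integrable_finsetSum _ fun b _ => hI _ _ _ _,
      Finset.mul_sum]
    refine Finset.sum_le_sum fun n0 _ => ?_
    rw [integral_finsetSum _ fun b _ => hI _ _ _ _, Finset.mul_sum]
    refine Finset.sum_le_sum fun n1 _ => ?_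
    rw [localForm_eq m0 m1 m2 b0 b1 b2, abs_mul, abs_of_pos (inv_pos.2 hη)]
    refine mul_le_mul_of_nonneg_left ?_ (inv_pos.2 hη).le
    refine abs_integral_le_integral_abs.trans (le_of_eq ?_)
    congr 1
    funext t
    rw [abs_div, abs_of_pos (by positivity : (0 : ℝ) < 2 ^ (i + 1))]
  refine (Finset.sum_le_sum fun i _ => s1 i (K - 1 - i)).trans ?_
  rw [← Finset.mul_sum, ← integral_finsetSum _ fun i _ => hL _ _]
  have c0 := integrable_cubes m0 b0 η K (u := fun t => t.1) (v := fun t => t.2.1)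
    (by fun_prop) (by fun_prop)
  have c1 := integrable_cubes m1 b1 η K (u := fun t => t.2.1) (v := fun t => t.2.2)
    (by fun_prop) (by fun_prop)
  have c2 := integrable_cubes m2 b2 η K (u := fun t => t.2.2) (v := fun t => t.1)
    (by fun_prop) (by fun_prop)
  have s2 : ∫ t in cube η, ∑ i ∈ range K, Lev (samp F0 η t.1 t.2.1) (samp F1 η t.2.1 t.2.2)
        (samp F2 η t.2.2 t.1) i (K - 1 - i)
      ≤ ∫ t in cube η, 18 * (cubes (samp F0 η t.1 t.2.1) K + cubes (samp F1 η t.2.1 t.2.2) K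
        + cubes (samp F2 η t.2.2 t.1) K) :=
    integral_mono (integrable_finsetSum _ fun i _ => hL _ _) (((c0.add c1).add c2).const_mul 18)
      fun t => discrete_bound _ _ _ K
  have c01 : Integrable (fun t : ℝ × ℝ × ℝ => cubes (samp F0 η t.1 t.2.1) K
      + cubes (samp F1 η t.2.1 t.2.2) K) (volume.restrict (cube η)) := c0.add c1
  rw [integral_const_mul, integral_add c01 c2, integral_add c0 c1, cubes0 m0 b0 hη,
    cubes1 m1 b1 hη, cubes2 m2 b2 hη] at s2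
  have r0 := rect_le i0 (η * 2 ^ K)
  have r1 := rect_le i1 (η * 2 ^ K)
  have r2 := rect_le i2 (η * 2 ^ K)
  rw [inv_mul_le_iff₀ hη]
  refine s2.trans ?_
  nlinarith [mul_le_mul_of_nonneg_left r0 hη.le, mul_le_mul_of_nonneg_left r1 hη.le,
    mul_le_mul_of_nonneg_left r2 hη.le]

end Vale.Agent.P075
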