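import Mathlib

/-! Elementary facts on real matrices: contractions, Frobenius sums, diagonalisation. -/

namespace Vale.Agent.P075

open Matrix

variable {α β γ : Type} [Fintype α] [Fintype β] [Fintype γ]

/-- `C` does not increase Euclidean length. -/
def Contr (C : Matrix α β ℝ) : Prop := ∀ x : β → ℝ, (C *ᵥ x) ⬝ᵥ (C *ᵥ x) ≤ x ⬝ᵥ x

/-- Sum of the squares of the entries. -/
def fro (X : Matrix α β ℝ) : ℝ := ∑ i, ∑ j, X i j ^ 2

lemma dot_self_nonneg (x : α → ℝ) : 0 ≤ x ⬝ᵥ x :=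
  Finset.sum_nonneg fun i _ => mul_self_nonneg (x i)

lemma two_dot_le (x y : α → ℝ) : 2 * (x ⬝ᵥ y) ≤ x ⬝ᵥ x + y ⬝ᵥ y := by
  simp only [dotProduct]
  rw [Finset.mul_sum, ← Finset.sum_add_distrib]
  exact Finset.sum_le_sum fun i _ => by nlinarith [sq_nonneg (x i - y i)]

lemma abs_two_dot_le (x y : α → ℝ) : |2 * (x ⬝ᵥ y)| ≤ x ⬝ᵥ x + y ⬝ᵥ y := by
  rw [abs_le]
  refine ⟨?_, two_dot_le x y⟩
  have := two_dot_le x (-y)
  simp only [dotProduct_neg, neg_dotProduct, neg_neg] at this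
  linarith

lemma dot_mulVec_eq (C : Matrix α β ℝ) (y : α → ℝ) (x : β → ℝ) :
    y ⬝ᵥ (C *ᵥ x) = (Cᵀ *ᵥ y) ⬝ᵥ x := by
  rw [dotProduct_mulVec, mulVec_transpose]

lemma Contr.transpose {C : Matrix α β ℝ} (h : Contr C) : Contr Cᵀ := by
  intro y
  set z := Cᵀ *ᵥ y with hz
  have h1 : z ⬝ᵥ z = y ⬝ᵥ (C *ᵥ z) := (dot_mulVec_eq C y z).symm
  have h2 := two_dot_le y (C *ᵥ z)
  have h3 := h z
  linarith

lemma Contr.mul {A : Matrix α β ℝ} {B : Matrix β γ ℝ} (hA : Contr A) (hB : Contr B) :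
    Contr (A * B) := by
  intro x
  rw [← mulVec_mulVec]
  exact (hA _).trans (hB x)

lemma contr_of_mul_transpose [DecidableEq α] {U : Matrix α β ℝ} (h : U * Uᵀ = 1) : Contr U := by
  have : Contr Uᵀ := by
    intro y
    rw [← dot_mulVec_eq, mulVec_mulVec, h, one_mulVec]
  simpa using this.transpose

lemma contr_of_transpose_mul [DecidableEq β] {U : Matrix α β ℝ} (h : Uᵀ * U = 1) : Contr U := by
  have : Contr Uᵀ := contr_of_mul_transpose (by simpa using h)
  simpa using this.transpose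

lemma Contr.col_le {C : Matrix α β ℝ} (h : Contr C) (j : β) : ∑ i, C i j ^ 2 ≤ 1 := by
  classical
  have := h (Pi.single j 1)
  simp only [mulVec_single_one, dotProduct, col_apply] at this
  simp only [pow_two]
  refine this.trans (le_of_eq ?_)
  simp [Pi.single_apply]

lemma Contr.row_le {C : Matrix α β ℝ} (h : Contr C) (i : α) : ∑ j, C i j ^ 2 ≤ 1 := by
  simpa using h.transpose.col_le i

lemma fro_transpose (X : Matrix α β ℝ) : fro Xᵀ = fro X := by
  simp only [fro, transpose_apply]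
  exact Finset.sum_comm

lemma fro_mul_le {C : Matrix α β ℝ} (h : Contr C) (X : Matrix β γ ℝ) : fro (C * X) ≤ fro X := by
  simp only [fro]
  rw [Finset.sum_comm, Finset.sum_comm (s := Finset.univ (α := β))]
  refine Finset.sum_le_sum fun j _ => ?_
  have := h (fun k => X k j)
  simp only [dotProduct, mulVec] at this
  simpa only [pow_two, mul_apply] using this

lemma fro_mul_le' {C : Matrix β γ ℝ} (h : Contr C) (X : Matrix α β ℝ) : fro (X * C) ≤ fro X := by
  rw [← fro_transpose, transpose_mul, ← fro_transpose X]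
  exact fro_mul_le h.transpose _

lemma abs_trace_mul_le (P : Matrix α β ℝ) (Q : Matrix β α ℝ) :
    |trace (P * Q)| ≤ (fro P + fro Q) / 2 := by
  rw [← fro_transpose Q]
  simp only [trace, Matrix.diag, mul_apply, fro, transpose_apply]
  rw [← Finset.sum_add_distrib, Finset.sum_div]
  refine (Finset.abs_sum_le_sum_abs _ _).trans (Finset.sum_le_sum fun i _ => ?_)
  rw [← Finset.sum_add_distrib, Finset.sum_div]
  refine (Finset.abs_sum_le_sum_abs _ _).trans (Finset.sum_le_sum fun j _ => ?_)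
  rw [abs_le]
  constructor <;> nlinarith [sq_nonneg (P i j - Q j i), sq_nonneg (P i j + Q j i)]

lemma young_scalar {a b : ℝ} (ha : 0 ≤ a) (hb : 0 ≤ b) : a ^ 2 * b ≤ 2 / 3 * a ^ 3 + 1 / 3 * b ^ 3 := by
  nlinarith [mul_nonneg (sq_nonneg (a - b)) (add_nonneg (add_nonneg ha ha) hb)]

lemma Contr.young {C : Matrix α β ℝ} (h : Contr C) {a : α → ℝ} {b : β → ℝ} (ha : ∀ i, 0 ≤ a i)
    (hb : ∀ j, 0 ≤ b j) :
    ∑ i, ∑ j, a i ^ 2 * b j * C i j ^ 2 ≤ 2 / 3 * ∑ i, a i ^ 3 + 1 / 3 * ∑ j, b j ^ 3 := by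
  calc ∑ i, ∑ j, a i ^ 2 * b j * C i j ^ 2
      ≤ ∑ i, ∑ j, (2 / 3 * a i ^ 3 * C i j ^ 2 + 1 / 3 * b j ^ 3 * C i j ^ 2) := by
        refine Finset.sum_le_sum fun i _ => Finset.sum_le_sum fun j _ => ?_
        rw [← add_mul]
        exact mul_le_mul_of_nonneg_right (young_scalar (ha i) (hb j)) (sq_nonneg _)
    _ = ∑ i, 2 / 3 * a i ^ 3 * ∑ j, C i j ^ 2 + ∑ j, 1 / 3 * b j ^ 3 * ∑ i, C i j ^ 2 := by
        simp only [Finset.sum_add_distrib, Finset.mul_sum]
        congr 1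
        exact Finset.sum_comm
    _ ≤ ∑ i, 2 / 3 * a i ^ 3 * 1 + ∑ j, 1 / 3 * b j ^ 3 * 1 := by
        refine add_le_add (Finset.sum_le_sum fun i _ => ?_) (Finset.sum_le_sum fun j _ => ?_)
        · exact mul_le_mul_of_nonneg_left (h.row_le i) (by have := ha i; positivity)
        · exact mul_le_mul_of_nonneg_left (h.col_le j) (by have := hb j; positivity)
    _ = _ := by simp only [mul_one, Finset.mul_sum]

variable [DecidableEq α] [DecidableEq β] [DecidableEq γ]

theorem exists_diag {M : Matrix α α ℝ} (hM : Mᵀ = M) :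
    ∃ (U : Matrix α α ℝ) (d : α → ℝ), Uᵀ * U = 1 ∧ U * Uᵀ = 1 ∧ M = U * diagonal d * Uᵀ := by
  have hH : M.IsHermitian := by
    unfold IsHermitian
    rw [conjTranspose_eq_transpose_of_trivial, hM]
  refine ⟨hH.eigenvectorUnitary, hH.eigenvalues, ?_, ?_, ?_⟩
  · have := Unitary.coe_star_mul_self hH.eigenvectorUnitary
    rwa [star_eq_conjTranspose, conjTranspose_eq_transpose_of_trivial] at this
  · have := Unitary.coe_mul_star_self hH.eigenvectorUnitary
    rwa [Unitary.coe_star, star_eq_conjTranspose, conjTranspose_eq_transpose_of_trivial] at this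
  · have := hH.spectral_theorem
    rw [Unitary.conjStarAlgAut_apply, star_eq_conjTranspose,
      conjTranspose_eq_transpose_of_trivial] at this
    simpa using this

lemma col_eigen {M U : Matrix α α ℝ} {d : α → ℝ} (h1 : Uᵀ * U = 1)
    (hM : M = U * diagonal d * Uᵀ) (j : α) :
    M *ᵥ (fun i => U i j) = d j • (fun i => U i j) := by
  have : M * U = U * diagonal d := by rw [hM, Matrix.mul_assoc, h1, Matrix.mul_one]
  funext i
  have h2 := congrFun (congrFun this i) j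
  rw [mul_diagonal] at h2
  simp only [mul_apply] at h2
  simp only [mulVec, dotProduct, Pi.smul_apply, smul_eq_mul]
  rw [h2, mul_comm]

lemma col_dot {U : Matrix α α ℝ} (h1 : Uᵀ * U = 1) (j : α) :
    (fun i => U i j) ⬝ᵥ (fun i => U i j) = 1 := by
  have h2 := congrFun (congrFun h1 j) j
  simpa [mul_apply, dotProduct] using h2

lemma dot_diagonal (d x : α → ℝ) : x ⬝ᵥ (diagonal d *ᵥ x) = ∑ i, d i * x i ^ 2 := by
  simp only [dotProduct, mulVec_diagonal]
  exact Finset.sum_congr rfl fun i _ => by ring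

/-- A symmetric matrix all of whose eigenvalues are nonnegative has a nonnegative form. -/
lemma psd_of_eigen {X : Matrix α α ℝ} (hX : Xᵀ = X)
    (h : ∀ (x : α → ℝ) (l : ℝ), x ⬝ᵥ x = 1 → X *ᵥ x = l • x → 0 ≤ l) (y : α → ℝ) :
    0 ≤ y ⬝ᵥ (X *ᵥ y) := by
  obtain ⟨U, d, h1, h2, h3⟩ := exists_diag hX
  have hd : ∀ j, 0 ≤ d j := fun j => h _ _ (col_dot h1 j) (col_eigen h1 h3 j)
  rw [h3, ← mulVec_mulVec, ← mulVec_mulVec, dot_mulVec_eq, dot_diagonal]
  exact Finset.sum_nonneg fun i _ => mul_nonneg (hd i) (sq_nonneg _)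

end Vale.Agent.P075
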