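import Vale.Agent.P075.Contr

/-! The trilinear trace estimate in coordinates where the weights are diagonal. -/

namespace Vale.Agent.P075

open Matrix

variable {α : Type} [Fintype α] [DecidableEq α]

/-- The solution `Z` of `N Z + Z N = N J N` for `N = diagonal ν`. -/
noncomputable def lyap (ν : α → ℝ) (J : Matrix α α ℝ) : Matrix α α ℝ :=
  Matrix.of fun i j => J i j * (ν i * ν j / (ν i + ν j))

/-- The quantity `tr (N Z Z)` for symmetric `Z`. -/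
def kap (ν : α → ℝ) (Z : Matrix α α ℝ) : ℝ := ∑ i, ∑ j, ν i * Z i j ^ 2

omit [Fintype α] [DecidableEq α] in
lemma lyap_symm {ν : α → ℝ} {J : Matrix α α ℝ} (hJ : Jᵀ = J) : (lyap ν J)ᵀ = lyap ν J := by
  ext i j
  have : J j i = J i j := congrFun (congrFun hJ i) j
  simp only [lyap, transpose_apply, of_apply, this]
  rw [mul_comm (ν j), add_comm (ν j)]

lemma lyap_eq {ν : α → ℝ} (hν : ∀ i, 0 < ν i) (J : Matrix α α ℝ) :
    diagonal ν * lyap ν J + lyap ν J * diagonal ν = diagonal ν * J * diagonal ν := by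
  ext i j
  simp only [Matrix.add_apply, diagonal_mul, mul_diagonal, lyap, of_apply]
  have := hν i
  have := hν j
  field_simp

lemma lyap_split {ν : α → ℝ} (hν : ∀ i, 0 < ν i) (J : Matrix α α ℝ) :
    J = diagonal (fun i => (ν i)⁻¹) * lyap ν J + lyap ν J * diagonal (fun i => (ν i)⁻¹) := by
  ext i j
  simp only [Matrix.add_apply, diagonal_mul, mul_diagonal, lyap, of_apply]
  have := hν i
  have := hν j
  field_simp
  ring

omit [DecidableEq α] in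
lemma sum_pos_of_unit {ν x : α → ℝ} (hν : ∀ i, 0 < ν i) (hx : x ⬝ᵥ x = 1) :
    0 < ∑ i, ν i * x i ^ 2 := by
  have hne : ∃ i, x i ≠ 0 := by
    by_contra hcon
    push Not at hcon
    have : x ⬝ᵥ x = 0 := by simp [dotProduct, hcon]
    linarith
  obtain ⟨i, hi⟩ := hne
  refine Finset.sum_pos' (fun j _ => mul_nonneg (hν j).le (sq_nonneg _)) ⟨i, Finset.mem_univ _, ?_⟩
  exact mul_pos (hν i) (by positivity)

lemma lyap_pos {ν : α → ℝ} (hν : ∀ i, 0 < ν i) {X : Matrix α α ℝ} (hX : Xᵀ = X)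
    (h : ∀ x, 0 ≤ (diagonal ν *ᵥ x) ⬝ᵥ (X *ᵥ x)) (y : α → ℝ) : 0 ≤ y ⬝ᵥ (X *ᵥ y) := by
  refine psd_of_eigen hX (fun x l hx hl => ?_) y
  have h1 := h x
  rw [hl, dotProduct_smul, dotProduct_comm, dot_diagonal, smul_eq_mul] at h1
  exact nonneg_of_mul_nonneg_left h1 (sum_pos_of_unit hν hx)

omit [DecidableEq α] in
lemma Contr.abs_form_le {J : Matrix α α ℝ} (hJ : Contr J) (y : α → ℝ) :
    |y ⬝ᵥ (J *ᵥ y)| ≤ y ⬝ᵥ y := by
  have h1 := abs_two_dot_le y (J *ᵥ y)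
  have h2 := hJ y
  rw [abs_mul, abs_two] at h1
  linarith

lemma lyap_bound {ν : α → ℝ} (hν : ∀ i, 0 < ν i) {J : Matrix α α ℝ} (hJ : Jᵀ = J)
    (hc : Contr J) (y : α → ℝ) :
    |y ⬝ᵥ (lyap ν J *ᵥ y)| ≤ 1 / 2 * ∑ i, ν i * y i ^ 2 := by
  have hZ := lyap_symm (ν := ν) hJ
  have key : ∀ x, 2 * ((diagonal ν *ᵥ x) ⬝ᵥ (lyap ν J *ᵥ x))
      = (diagonal ν *ᵥ x) ⬝ᵥ (J *ᵥ (diagonal ν *ᵥ x)) := by
    intro x
    have e1 : x ⬝ᵥ ((diagonal ν * lyap ν J + lyap ν J * diagonal ν) *ᵥ x)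
        = x ⬝ᵥ ((diagonal ν * J * diagonal ν) *ᵥ x) := by rw [lyap_eq hν]
    have e2 : x ⬝ᵥ ((diagonal ν * lyap ν J) *ᵥ x) = (diagonal ν *ᵥ x) ⬝ᵥ (lyap ν J *ᵥ x) := by
      rw [← mulVec_mulVec, dot_mulVec_eq (diagonal ν), diagonal_transpose]
    have e3 : x ⬝ᵥ ((lyap ν J * diagonal ν) *ᵥ x) = (diagonal ν *ᵥ x) ⬝ᵥ (lyap ν J *ᵥ x) := by
      rw [← mulVec_mulVec, dot_mulVec_eq (lyap ν J), hZ, dotProduct_comm]
    have e4 : x ⬝ᵥ ((diagonal ν * J * diagonal ν) *ᵥ x)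
        = (diagonal ν *ᵥ x) ⬝ᵥ (J *ᵥ (diagonal ν *ᵥ x)) := by
      rw [← mulVec_mulVec, ← mulVec_mulVec, dot_mulVec_eq (diagonal ν), diagonal_transpose]
    rw [add_mulVec, dotProduct_add, e2, e3, e4] at e1
    linarith
  have main : ∀ σ : ℝ, |σ| ≤ 1 →
      0 ≤ y ⬝ᵥ (((1 / 2 : ℝ) • diagonal ν - σ • lyap ν J) *ᵥ y) := by
    intro σ hσ
    refine lyap_pos hν ?_ (fun x => ?_) y
    · rw [transpose_sub, transpose_smul, transpose_smul, diagonal_transpose, hZ]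
    · rw [sub_mulVec, smul_mulVec, smul_mulVec, dotProduct_sub, dotProduct_smul, dotProduct_smul,
        smul_eq_mul, smul_eq_mul]
      have h1 := key x
      have h2 := hc.abs_form_le (diagonal ν *ᵥ x)
      set a := (diagonal ν *ᵥ x) ⬝ᵥ (lyap ν J *ᵥ x)
      set b := (diagonal ν *ᵥ x) ⬝ᵥ (diagonal ν *ᵥ x)
      rw [← h1, abs_mul, abs_two] at h2
      have h3 : σ * a ≤ |a| := by
        calc σ * a ≤ |σ * a| := le_abs_self _
          _ = |σ| * |a| := abs_mul _ _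
          _ ≤ 1 * |a| := mul_le_mul_of_nonneg_right hσ (abs_nonneg _)
          _ = |a| := one_mul _
      linarith
  have h1 := main 1 (by simp)
  have h2 := main (-1) (by simp)
  rw [sub_mulVec, smul_mulVec, smul_mulVec, dotProduct_sub, dotProduct_smul, dotProduct_smul,
    smul_eq_mul, smul_eq_mul, dot_diagonal] at h1 h2
  rw [abs_le]
  constructor <;> linarith

lemma heinz {ν μ : α → ℝ} (hν : ∀ i, 0 < ν i) (hμ : ∀ i, 0 < μ i) {F : Matrix α α ℝ}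
    (h1 : Contr (diagonal (fun i => (ν i)⁻¹) * F)) (h2 : Contr (F * diagonal (fun i => (μ i)⁻¹))) :
    Contr (diagonal (fun i => (√(ν i))⁻¹) * F * diagonal (fun i => (√(μ i))⁻¹)) := by
  set C := diagonal (fun i => (√(ν i))⁻¹) * F * diagonal (fun i => (√(μ i))⁻¹) with hC
  have hsν : ∀ i, 0 < √(ν i) := fun i => Real.sqrt_pos.2 (hν i)
  have hsμ : ∀ i, 0 < √(μ i) := fun i => Real.sqrt_pos.2 (hμ i)
  -- two factorisations
  have f1 : F * diagonal (fun i => (μ i)⁻¹) * diagonal (fun i => √(μ i))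
      = diagonal (fun i => √(ν i)) * C := by
    ext i j
    simp only [hC, mul_diagonal, diagonal_mul]
    have := hsν i
    have := hsμ j
    have h5 := Real.mul_self_sqrt (hμ j).le
    have h6 : (μ j)⁻¹ = (√(μ j))⁻¹ * (√(μ j))⁻¹ := by rw [← mul_inv, h5]
    rw [h6]
    field_simp
  have f2 : (diagonal (fun i => (ν i)⁻¹) * F)ᵀ * diagonal (fun i => √(ν i))
      = diagonal (fun i => √(μ i)) * Cᵀ := by
    ext i j
    simp only [hC, mul_diagonal, diagonal_mul, transpose_apply]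
    have := hsν j
    have := hsμ i
    have h5 := Real.mul_self_sqrt (hν j).le
    have h6 : (ν j)⁻¹ = (√(ν j))⁻¹ * (√(ν j))⁻¹ := by rw [← mul_inv, h5]
    rw [h6]
    field_simp
  have main : ∀ y, 0 ≤ y ⬝ᵥ ((1 - Cᵀ * C) *ᵥ y) := by
    refine psd_of_eigen (by simp [transpose_sub, transpose_mul]) (fun y l hy hl => ?_)
    have e1 : Cᵀ *ᵥ (C *ᵥ y) = (1 - l) • y := by
      rw [sub_mulVec, one_mulVec, ← mulVec_mulVec] at hl
      rw [sub_smul, one_smul, ← hl]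
      abel
    set x := C *ᵥ y with hx
    set a := diagonal (fun i => √(ν i)) *ᵥ x with ha
    set b := diagonal (fun i => √(μ i)) *ᵥ y with hb
    have g1 : a ⬝ᵥ a ≤ b ⬝ᵥ b := by
      have := h2 b
      rw [hb, mulVec_mulVec, f1, ← mulVec_mulVec] at this
      exact this
    have g2 : (1 - l) ^ 2 * (b ⬝ᵥ b) ≤ a ⬝ᵥ a := by
      have := h1.transpose a
      rw [ha, mulVec_mulVec, f2, ← mulVec_mulVec, e1, mulVec_smul, ← hb, smul_dotProduct,
        dotProduct_smul, smul_eq_mul, smul_eq_mul] at this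
      rw [pow_two, mul_assoc]
      exact this
    have g3 : 0 < b ⬝ᵥ b := by
      have := sum_pos_of_unit hμ hy
      refine this.trans_eq ?_
      simp only [hb, dotProduct, mulVec_diagonal]
      refine Finset.sum_congr rfl fun i _ => ?_
      have h5 := Real.mul_self_sqrt (hμ i).le
      calc μ i * y i ^ 2 = (√(μ i) * √(μ i)) * y i ^ 2 := by rw [h5]
        _ = _ := by ring
    by_contra hneg
    push Not at hneg
    nlinarith [mul_pos g3 (neg_pos.2 hneg), mul_pos (mul_pos g3 (neg_pos.2 hneg)) (neg_pos.2 hneg)]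
  intro y
  have := main y
  rw [sub_mulVec, one_mulVec, dotProduct_sub, ← mulVec_mulVec, dot_mulVec_eq, transpose_transpose]
    at this
  linarith

lemma cube_le {ν : α → ℝ} {Z W : Matrix α α ℝ} {ζ : α → ℝ} (h1 : Wᵀ * W = 1)
    (hZ : Z = W * diagonal ζ * Wᵀ) (hb : ∀ y, |y ⬝ᵥ (Z *ᵥ y)| ≤ 1 / 2 * ∑ i, ν i * y i ^ 2) :
    ∑ k, |ζ k| ^ 3 ≤ 1 / 2 * kap ν Z := by
  have hrow : ∀ i, ∑ j, Z i j ^ 2 = ∑ k, W i k ^ 2 * ζ k ^ 2 := by
    intro i
    have e1 : Z * Zᵀ = (W * diagonal ζ) * (W * diagonal ζ)ᵀ := by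
      rw [hZ, transpose_mul, transpose_transpose, Matrix.mul_assoc, ← Matrix.mul_assoc Wᵀ, h1,
        Matrix.one_mul]
    have e2 := congrFun (congrFun e1 i) i
    rw [mul_apply, mul_apply] at e2
    simp only [transpose_apply, mul_diagonal] at e2
    simp only [pow_two]
    rw [e2]
    exact Finset.sum_congr rfl fun k _ => by ring
  have hk : kap ν Z = ∑ k, ζ k ^ 2 * ∑ i, ν i * W i k ^ 2 := by
    simp only [kap, ← Finset.mul_sum, hrow]
    simp only [Finset.mul_sum]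
    rw [Finset.sum_comm]
    exact Finset.sum_congr rfl fun k _ => Finset.sum_congr rfl fun i _ => by ring
  rw [hk, Finset.mul_sum]
  refine Finset.sum_le_sum fun k _ => ?_
  have h2 := hb (fun i => W i k)
  rw [col_eigen h1 hZ k, dotProduct_smul, col_dot h1, smul_eq_mul, mul_one] at h2
  have h3 : |ζ k| ^ 3 = ζ k ^ 2 * |ζ k| := by rw [← sq_abs]; ring
  rw [h3]
  calc ζ k ^ 2 * |ζ k| ≤ ζ k ^ 2 * (1 / 2 * ∑ i, ν i * W i k ^ 2) :=
        mul_le_mul_of_nonneg_left h2 (sq_nonneg _)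
    _ = _ := by ring

lemma holder_diag {a b c : α → ℝ} {C0 C1 C2 : Matrix α α ℝ} (h0 : Contr C0) (h1 : Contr C1)
    (h2 : Contr C2) :
    |trace (diagonal a * C0 * diagonal b * C1 * diagonal c * C2)|
      ≤ 1 / 3 * (∑ i, |a i| ^ 3 + ∑ i, |b i| ^ 3 + ∑ i, |c i| ^ 3) := by
  have hs : ∀ j, b j = √|b j| * (SignType.sign (b j) * √|b j|) := by
    intro j
    rw [mul_left_comm, Real.mul_self_sqrt (abs_nonneg _), sign_mul_abs]
  have e : diagonal a * C0 * diagonal b * C1 * diagonal c * C2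
      = (diagonal a * C0 * diagonal (fun j => √|b j|))
        * ((diagonal (fun j => SignType.sign (b j) * √|b j|) * C1 * diagonal c) * C2) := by
    have : diagonal b = diagonal (fun j => √|b j|)
        * diagonal (fun j => SignType.sign (b j) * √|b j|) := by
      rw [diagonal_mul_diagonal]
      congr 1
      funext j
      exact hs j
    rw [this]
    simp only [Matrix.mul_assoc]
  rw [e]
  refine (abs_trace_mul_le _ _).trans ?_
  have g1 : fro (diagonal a * C0 * diagonal (fun j => √|b j|))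
      ≤ 2 / 3 * ∑ i, |a i| ^ 3 + 1 / 3 * ∑ i, |b i| ^ 3 := by
    refine le_trans (le_of_eq ?_) (h0.young (fun i => abs_nonneg (a i)) (fun j => abs_nonneg (b j)))
    simp only [fro, mul_diagonal, diagonal_mul, mul_pow, Real.sq_sqrt (abs_nonneg _), sq_abs]
    exact Finset.sum_congr rfl fun i _ => Finset.sum_congr rfl fun j _ => by ring
  have g2 : fro (diagonal (fun j => SignType.sign (b j) * √|b j|) * C1 * diagonal c)
      ≤ 2 / 3 * ∑ i, |c i| ^ 3 + 1 / 3 * ∑ i, |b i| ^ 3 := by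
    refine le_trans ?_
      (h1.transpose.young (fun i => abs_nonneg (c i)) (fun j => abs_nonneg (b j)))
    rw [← fro_transpose]
    simp only [fro, mul_diagonal, diagonal_mul, mul_pow, Real.sq_sqrt (abs_nonneg _), sq_abs,
      transpose_apply]
    refine Finset.sum_le_sum fun i _ => Finset.sum_le_sum fun j _ => ?_
    have hsg : ((SignType.sign (b j) : SignType) : ℝ) ^ 2 ≤ 1 := by
      rcases lt_trichotomy (b j) 0 with h | h | h <;> simp [h]
    have : 0 ≤ c i ^ 2 * |b j| * C1 j i ^ 2 := by positivity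
    nlinarith
  have g3 := fro_mul_le' h2 (diagonal (fun j => SignType.sign (b j) * √|b j|) * C1 * diagonal c)
  linarith

lemma holder3 {ν0 ν1 ν2 : α → ℝ} {Z0 Z1 Z2 C0 C1 C2 : Matrix α α ℝ} (s0 : Z0ᵀ = Z0)
    (s1 : Z1ᵀ = Z1) (s2 : Z2ᵀ = Z2)
    (b0 : ∀ y, |y ⬝ᵥ (Z0 *ᵥ y)| ≤ 1 / 2 * ∑ i, ν0 i * y i ^ 2)
    (b1 : ∀ y, |y ⬝ᵥ (Z1 *ᵥ y)| ≤ 1 / 2 * ∑ i, ν1 i * y i ^ 2)
    (b2 : ∀ y, |y ⬝ᵥ (Z2 *ᵥ y)| ≤ 1 / 2 * ∑ i, ν2 i * y i ^ 2)
    (h0 : Contr C0) (h1 : Contr C1) (h2 : Contr C2) :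
    |trace (Z0 * C0 * Z1 * C1 * Z2 * C2)| ≤ 1 / 6 * (kap ν0 Z0 + kap ν1 Z1 + kap ν2 Z2) := by
  obtain ⟨W0, ζ0, p0, q0, r0⟩ := exists_diag s0
  obtain ⟨W1, ζ1, p1, q1, r1⟩ := exists_diag s1
  obtain ⟨W2, ζ2, p2, q2, r2⟩ := exists_diag s2
  have c0 := cube_le p0 r0 b0
  have c1 := cube_le p1 r1 b1
  have c2 := cube_le p2 r2 b2
  have w0 := contr_of_transpose_mul p0
  have w1 := contr_of_transpose_mul p1
  have w2 := contr_of_transpose_mul p2
  have e : trace (Z0 * C0 * Z1 * C1 * Z2 * C2)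
      = trace (diagonal ζ0 * (W0ᵀ * C0 * W1) * diagonal ζ1 * (W1ᵀ * C1 * W2) * diagonal ζ2
        * (W2ᵀ * C2 * W0)) := by
    conv_lhs => rw [r0, r1, r2]
    simp only [Matrix.mul_assoc]
    rw [trace_mul_comm W0]
    simp only [Matrix.mul_assoc]
  rw [e]
  have := holder_diag (a := ζ0) (b := ζ1) (c := ζ2) ((w0.transpose.mul h0).mul w1)
    ((w1.transpose.mul h1).mul w2) ((w2.transpose.mul h2).mul w0)
  linarith

lemma pattern {ν μ : α → ℝ} (hν : ∀ i, 0 < ν i) (hμ : ∀ i, 0 < μ i) {F K Z1 Z2 : Matrix α α ℝ}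
    (h1 : Contr (diagonal (fun i => (ν i)⁻¹) * F)) (h2 : Contr (F * diagonal (fun i => (μ i)⁻¹)))
    (hK : Contr K) (s1 : Z1ᵀ = Z1) :
    |trace (K * Z1 * F * Z2)| ≤ (kap ν Z1 + kap μ Z2) / 2 := by
  have hC := heinz hν hμ h1 h2
  set C := diagonal (fun i => (√(ν i))⁻¹) * F * diagonal (fun i => (√(μ i))⁻¹) with hCdef
  have hF : F = diagonal (fun i => √(ν i)) * C * diagonal (fun i => √(μ i)) := by
    ext i j
    simp only [hCdef, mul_diagonal, diagonal_mul]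
    have := Real.sqrt_pos.2 (hν i)
    have := Real.sqrt_pos.2 (hμ j)
    field_simp
  have e : K * Z1 * F * Z2 = (K * (Z1 * diagonal (fun i => √(ν i))))
      * (C * (diagonal (fun i => √(μ i)) * Z2)) := by
    conv_lhs => rw [hF]
    simp only [Matrix.mul_assoc]
  rw [e]
  refine (abs_trace_mul_le _ _).trans ?_
  have g1 := fro_mul_le hK (Z1 * diagonal (fun i => √(ν i)))
  have g2 := fro_mul_le hC (diagonal (fun i => √(μ i)) * Z2)
  have g3 : fro (Z1 * diagonal (fun i => √(ν i))) = kap ν Z1 := by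
    rw [← fro_transpose, transpose_mul, s1, diagonal_transpose]
    simp only [fro, kap, diagonal_mul, mul_pow, Real.sq_sqrt (hν _).le]
  have g4 : fro (diagonal (fun i => √(μ i)) * Z2) = kap μ Z2 := by
    simp only [fro, kap, diagonal_mul, mul_pow, Real.sq_sqrt (hμ _).le]
  linarith

theorem trilinear {ν0 ν1 ν2 : α → ℝ} (p0 : ∀ i, 0 < ν0 i) (p1 : ∀ i, 0 < ν1 i) (p2 : ∀ i, 0 < ν2 i)
    {J0 J1 J2 F0 F1 F2 : Matrix α α ℝ} (s0 : J0ᵀ = J0) (s1 : J1ᵀ = J1) (s2 : J2ᵀ = J2)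
    (c0 : Contr J0) (c1 : Contr J1) (c2 : Contr J2)
    (l0 : Contr (diagonal (fun i => (ν0 i)⁻¹) * F0)) (r0 : Contr (F0 * diagonal (fun i => (ν1 i)⁻¹)))
    (l1 : Contr (diagonal (fun i => (ν1 i)⁻¹) * F1)) (r1 : Contr (F1 * diagonal (fun i => (ν2 i)⁻¹)))
    (l2 : Contr (diagonal (fun i => (ν2 i)⁻¹) * F2)) (r2 : Contr (F2 * diagonal (fun i => (ν0 i)⁻¹))) :
    |trace (J0 * F0 * J1 * F1 * J2 * F2)|
      ≤ 4 / 3 * (kap ν0 (lyap ν0 J0) + kap ν1 (lyap ν1 J1) + kap ν2 (lyap ν2 J2)) := by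
  have t0 := lyap_symm (ν := ν0) s0
  have t1 := lyap_symm (ν := ν1) s1
  have t2 := lyap_symm (ν := ν2) s2
  have b0 := lyap_bound p0 s0 c0
  have b1 := lyap_bound p1 s1 c1
  have b2 := lyap_bound p2 s2 c2
  have e0 := lyap_split p0 J0
  have e1 := lyap_split p1 J1
  have e2 := lyap_split p2 J2
  set Z0 := lyap ν0 J0
  set Z1 := lyap ν1 J1
  set Z2 := lyap ν2 J2
  set D0 := diagonal (fun i => (ν0 i)⁻¹)
  set D1 := diagonal (fun i => (ν1 i)⁻¹)
  set D2 := diagonal (fun i => (ν2 i)⁻¹)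
  have A1 := holder3 t0 t1 t2 b0 b1 b2 r0 r1 r2
  have A2 := holder3 t0 t1 t2 b0 b1 b2 l0 l1 l2
  have B1 := pattern (Z1 := Z1) (Z2 := Z2) p1 p2 l1 r1 ((l2.mul c0).mul r0) t1
  have B2 := pattern (Z1 := Z2) (Z2 := Z0) p2 p0 l2 r2 ((l0.mul c1).mul r1) t2
  have B0 := pattern (Z1 := Z0) (Z2 := Z1) p0 p1 l0 r0 ((l1.mul c2).mul r2) t0
  have expand : J0 * F0 * J1 * F1 * J2 * F2
      = D0 * (Z0 * (F0 * D1) * Z1 * (F1 * D2) * Z2 * F2)
        + Z0 * (D0 * F0) * Z1 * (D1 * F1) * Z2 * (D2 * F2)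
        + (J0 * (F0 * D1) * Z1 * F1 * Z2) * (D2 * F2)
        + Z0 * (D0 * F0 * J1 * (F1 * D2) * Z2 * F2)
        + (D0 * Z0 * F0 * Z1) * (D1 * F1 * J2 * F2) := by
    rw [e0, e1, e2]
    noncomm_ring
  have T1 : trace (D0 * (Z0 * (F0 * D1) * Z1 * (F1 * D2) * Z2 * F2))
      = trace (Z0 * (F0 * D1) * Z1 * (F1 * D2) * Z2 * (F2 * D0)) := by
    rw [trace_mul_comm]
    simp only [Matrix.mul_assoc]
  have T3 : trace ((J0 * (F0 * D1) * Z1 * F1 * Z2) * (D2 * F2))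
      = trace (D2 * F2 * J0 * (F0 * D1) * Z1 * F1 * Z2) := by
    rw [trace_mul_comm]
    simp only [Matrix.mul_assoc]
  have T4 : trace (Z0 * (D0 * F0 * J1 * (F1 * D2) * Z2 * F2))
      = trace (D0 * F0 * J1 * (F1 * D2) * Z2 * F2 * Z0) := by
    rw [trace_mul_comm]
  have T5 : trace ((D0 * Z0 * F0 * Z1) * (D1 * F1 * J2 * F2))
      = trace (D1 * F1 * J2 * (F2 * D0) * Z0 * F0 * Z1) := by
    rw [trace_mul_comm]
    simp only [Matrix.mul_assoc]
  rw [expand, trace_add, trace_add, trace_add, trace_add, T1, T3, T4, T5]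
  rw [abs_le] at A1 A2 B0 B1 B2 ⊢
  constructor <;> linarith [A1.1, A1.2, A2.1, A2.2, B0.1, B0.2, B1.1, B1.2, B2.1, B2.2]

end Vale.Agent.P075
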