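import Mathlib

/-! Definitions for the dyadic model of the triangular Hilbert transform. -/

namespace Vale.Agent.P075

open MeasureTheory

/-- The dyadic interval `[2^k n, 2^k (n+1))`. -/
def dyadic (k : ℤ) (n : ℕ) : Set ℝ := Set.Ico ((2 : ℝ) ^ k * n) ((2 : ℝ) ^ k * (n + 1))

/-- The Haar function of `dyadic k n`: indicator of the left half minus indicator of the right
half. -/
noncomputable def haar (k : ℤ) (n : ℕ) (x : ℝ) : ℝ :=
  (Set.Ico ((2 : ℝ) ^ k * n) ((2 : ℝ) ^ k * (n + 1 / 2))).indicator 1 x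
    - (Set.Ico ((2 : ℝ) ^ k * (n + 1 / 2)) ((2 : ℝ) ^ k * (n + 1))).indicator 1 x

/-- The local form `L_I` of the triple `I = (dyadic k n0, dyadic k n1, dyadic k n2)`. -/
noncomputable def localForm (F0 F1 F2 : ℝ × ℝ → ℝ) (k : ℤ) (n0 n1 n2 : ℕ) : ℝ :=
  (2 : ℝ) ^ (-k) * ∫ x in dyadic k n0 ×ˢ dyadic k n1 ×ˢ dyadic k n2,
    F0 (x.1, x.2.1) * F1 (x.2.1, x.2.2) * F2 (x.2.2, x.1)
      * (haar k n0 x.1 * haar k n1 x.2.1 * haar k n2 x.2.2)

/-- Index triples whose bitwise XOR vanishes. -/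
def xorZero : Set (ℕ × ℕ × ℕ) := {n | n.1 ^^^ n.2.1 ^^^ n.2.2 = 0}

/-- The dyadic triangular form with scales `S` and coefficients `ε`. -/
noncomputable def dyadicForm (S : Finset ℤ) (ε : ℤ → ℝ) (F0 F1 F2 : ℝ × ℝ → ℝ) : ℝ :=
  ∑ k ∈ S, ε k * ∑' n : xorZero, localForm F0 F1 F2 k n.1.1 n.1.2.1 n.1.2.2

/-- The norm of `L^3([0,∞)^2)`. -/
noncomputable def normL3 (F : ℝ × ℝ → ℝ) : ℝ :=
  (eLpNorm F 3 (volume.restrict (Set.Ici (0 : ℝ) ×ˢ Set.Ici (0 : ℝ)))).toReal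

/-- Bounded, compactly supported, measurable real functions. -/
def Admissible (F : ℝ × ℝ → ℝ) : Prop :=
  Measurable F ∧ (∃ M : ℝ, ∀ x, |F x| ≤ M) ∧ HasCompactSupport F

end Vale.Agent.P075
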