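import Vale.Agent.P075.Cont

/-! Homogeneity, compact support and the final bound. -/

namespace Vale.Agent.P075

open MeasureTheory Finset

lemma Admissible.memLp {F : ℝ × ℝ → ℝ} (h : Admissible F) :
    MemLp F 3 (volume.restrict (Set.Ici (0 : ℝ) ×ˢ Set.Ici (0 : ℝ))) := by
  obtain ⟨hm, ⟨M, hM⟩, hc⟩ := h
  have : MemLp F 3 volume := hc.memLp_of_bound hm.aestronglyMeasurable M
    (ae_of_all _ fun x => by simpa using hM x)
  exact this.restrict _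

lemma Admissible.integrableOn {F : ℝ × ℝ → ℝ} (h : Admissible F) :
    IntegrableOn (fun y => |F y| ^ 3) (Set.Ici (0 : ℝ) ×ˢ Set.Ici (0 : ℝ)) := by
  have := h.memLp.integrable_norm_pow (p := 3) (by norm_num)
  simpa only [Real.norm_eq_abs, IntegrableOn] using this

lemma cubeInt_nonneg (F : ℝ × ℝ → ℝ) : 0 ≤ cubeInt F :=
  integral_nonneg fun y => by positivity

lemma normL3_nonneg (F : ℝ × ℝ → ℝ) : 0 ≤ normL3 F := ENNReal.toReal_nonneg

lemma Admissible.normL3_cube {F : ℝ × ℝ → ℝ} (h : Admissible F) : normL3 F ^ 3 = cubeInt F := by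
  rw [normL3, h.memLp.eLpNorm_eq_integral_rpow_norm (by norm_num) (by norm_num)]
  have e : ∫ a in Set.Ici (0 : ℝ) ×ˢ Set.Ici (0 : ℝ), ‖F a‖ ^ (3 : ENNReal).toReal = cubeInt F := by
    rw [cubeInt]
    congr 1
    funext a
    rw [show (3 : ENNReal).toReal = ((3 : ℕ) : ℝ) by norm_num, Real.rpow_natCast, Real.norm_eq_abs]
  rw [e, ENNReal.toReal_ofReal (Real.rpow_nonneg (cubeInt_nonneg F) _),
    show (3 : ENNReal).toReal = ((3 : ℕ) : ℝ) by norm_num]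
  exact Real.rpow_inv_natCast_pow (cubeInt_nonneg F) (by norm_num)

lemma localForm_smul (F0 F1 F2 : ℝ × ℝ → ℝ) (c0 c1 c2 : ℝ) (k : ℤ) (n0 n1 n2 : ℕ) :
    localForm (fun y => c0 * F0 y) (fun y => c1 * F1 y) (fun y => c2 * F2 y) k n0 n1 n2
      = c0 * c1 * c2 * localForm F0 F1 F2 k n0 n1 n2 := by
  rw [localForm, localForm, mul_left_comm, ← integral_const_mul (c0 * c1 * c2)]
  congr 2
  funext x
  ring

lemma cubeInt_smul (F : ℝ × ℝ → ℝ) {c : ℝ} (hc : 0 ≤ c) :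
    cubeInt (fun y => c * F y) = c ^ 3 * cubeInt F := by
  rw [cubeInt, cubeInt, ← integral_const_mul]
  congr 1
  funext y
  rw [abs_mul, abs_of_nonneg hc, mul_pow]

lemma Admissible.smul {F : ℝ × ℝ → ℝ} (h : Admissible F) (c : ℝ) :
    Admissible (fun y => c * F y) := by
  obtain ⟨hm, ⟨M, hM⟩, hc⟩ := h
  refine ⟨hm.const_mul c, ⟨|c| * M, fun x => ?_⟩, ?_⟩
  · rw [abs_mul]
    exact mul_le_mul_of_nonneg_left (hM x) (abs_nonneg c)
  · exact hc.mul_left (f := fun _ => c)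

theorem prod_bound {F0 F1 F2 : ℝ × ℝ → ℝ} (h0 : Admissible F0) (h1 : Admissible F1)
    (h2 : Admissible F2) (k0 : ℤ) (K : ℕ) :
    ∑ i ∈ range K, ∑ n0 ∈ range (2 ^ (K - 1 - i)), ∑ n1 ∈ range (2 ^ (K - 1 - i)),
      |localForm F0 F1 F2 (k0 + 1 + i) n0 n1 (n0 ^^^ n1)|
      ≤ 54 * (normL3 F0 * normL3 F1 * normL3 F2) := by
  set X := ∑ i ∈ range K, ∑ n0 ∈ range (2 ^ (K - 1 - i)), ∑ n1 ∈ range (2 ^ (K - 1 - i)),
      |localForm F0 F1 F2 (k0 + 1 + i) n0 n1 (n0 ^^^ n1)| with hX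
  have main : ∀ δ : ℝ, 0 < δ → X ≤ 54 * ((normL3 F0 + δ) * (normL3 F1 + δ) * (normL3 F2 + δ)) := by
    intro δ hδ
    have p0 : 0 < normL3 F0 + δ := add_pos_of_nonneg_of_pos (normL3_nonneg _) hδ
    have p1 : 0 < normL3 F1 + δ := add_pos_of_nonneg_of_pos (normL3_nonneg _) hδ
    have p2 : 0 < normL3 F2 + δ := add_pos_of_nonneg_of_pos (normL3_nonneg _) hδ
    have g0 := h0.smul (normL3 F0 + δ)⁻¹
    have g1 := h1.smul (normL3 F1 + δ)⁻¹
    have g2 := h2.smul (normL3 F2 + δ)⁻¹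
    obtain ⟨M0, b0⟩ := g0.2.1
    obtain ⟨M1, b1⟩ := g1.2.1
    obtain ⟨M2, b2⟩ := g2.2.1
    have h := cont_bound g0.1 g1.1 g2.1 b0 b1 b2 g0.integrableOn g1.integrableOn g2.integrableOn k0 K
    have one : ∀ {F : ℝ × ℝ → ℝ}, Admissible F → 0 < normL3 F + δ →
        cubeInt (fun y => (normL3 F + δ)⁻¹ * F y) ≤ 1 := by
      intro F hF p
      rw [cubeInt_smul F (inv_pos.2 p).le, ← hF.normL3_cube, ← mul_pow]
      refine pow_le_one₀ (mul_nonneg (inv_pos.2 p).le (normL3_nonneg _)) ?_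
      rw [inv_mul_le_iff₀ p]
      linarith
    have q0 := one h0 p0
    have q1 := one h1 p1
    have q2 := one h2 p2
    have hc : 0 < (normL3 F0 + δ)⁻¹ * (normL3 F1 + δ)⁻¹ * (normL3 F2 + δ)⁻¹ := by positivity
    simp only [localForm_smul, abs_mul _ (localForm _ _ _ _ _ _ _), abs_of_pos hc,
      ← Finset.mul_sum] at h
    rw [← hX, ← mul_inv, ← mul_inv, inv_mul_le_iff₀ (by positivity)] at h
    have hp : 0 < (normL3 F0 + δ) * (normL3 F1 + δ) * (normL3 F2 + δ) := by positivity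
    nlinarith
  have hc : Continuous fun δ : ℝ =>
      54 * ((normL3 F0 + δ) * (normL3 F1 + δ) * (normL3 F2 + δ)) := by fun_prop
  have ht := (hc.tendsto 0).mono_left (nhdsWithin_le_nhds (s := Set.Ioi 0))
  have := ge_of_tendsto ht (eventually_nhdsWithin_of_forall fun δ hδ => main δ hδ)
  simpa using this

lemma Admissible.exists_radius {F : ℝ × ℝ → ℝ} (h : Admissible F) :
    ∃ R : ℝ, ∀ x : ℝ × ℝ, R ≤ x.1 ∨ R ≤ x.2 → F x = 0 := by
  obtain ⟨r, hr⟩ := h.2.2.isCompact.isBounded.subset_ball (0 : ℝ × ℝ)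
  refine ⟨r, fun x hx => ?_⟩
  by_contra hne
  have h1 := hr (subset_tsupport F hne)
  rw [mem_ball_zero_iff] at h1
  have h2 := norm_fst_le x
  have h3 := norm_snd_le x
  rw [Real.norm_eq_abs] at h2 h3
  rcases hx with hx | hx
  · linarith [le_abs_self x.1]
  · linarith [le_abs_self x.2]

lemma localForm_zero {F0 : ℝ × ℝ → ℝ} (F1 F2 : ℝ × ℝ → ℝ) {R : ℝ}
    (hR : ∀ x : ℝ × ℝ, R ≤ x.1 ∨ R ≤ x.2 → F0 x = 0) {k : ℤ} {N n0 n1 : ℕ} (n2 : ℕ)
    (hN : R ≤ (2 : ℝ) ^ k * N) (hn : N ≤ n0 ∨ N ≤ n1) : localForm F0 F1 F2 k n0 n1 n2 = 0 := by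
  have hk : (0 : ℝ) < 2 ^ k := by positivity
  rw [localForm, setIntegral_eq_zero_of_forall_eq_zero, mul_zero]
  intro x hx
  rw [hR (x.1, x.2.1)]
  · simp
  · rcases hn with hn | hn
    · left
      have h1 : (2 : ℝ) ^ k * n0 ≤ x.1 := hx.1.1
      have h2 : (N : ℝ) ≤ n0 := Nat.cast_le.2 hn
      nlinarith
    · right
      have h1 : (2 : ℝ) ^ k * n1 ≤ x.2.1 := hx.2.1.1
      have h2 : (N : ℝ) ≤ n1 := Nat.cast_le.2 hn
      show R ≤ x.2.1
      nlinarith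

/-- The parametrisation of `xorZero` by its first two coordinates. -/
def emb : ℕ × ℕ ↪ xorZero where
  toFun p := ⟨(p.1, p.2, p.1 ^^^ p.2), by simp [xorZero]⟩
  inj' p q h := by
    have := congrArg Subtype.val h
    simp only [Prod.mk.injEq] at this
    exact Prod.ext this.1 this.2.1

lemma zero_off {F0 : ℝ × ℝ → ℝ} (F1 F2 : ℝ × ℝ → ℝ) {R : ℝ}
    (hR : ∀ x : ℝ × ℝ, R ≤ x.1 ∨ R ≤ x.2 → F0 x = 0) {k : ℤ} {N : ℕ}
    (hN : R ≤ (2 : ℝ) ^ k * N) (n : xorZero) (hn : n ∉ (range N ×ˢ range N).map emb) :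
    localForm F0 F1 F2 k n.1.1 n.1.2.1 n.1.2.2 = 0 := by
  refine localForm_zero F1 F2 hR _ hN ?_
  by_contra hcon
  push Not at hcon
  apply hn
  rw [Finset.mem_map]
  refine ⟨(n.1.1, n.1.2.1), mem_product.2 ⟨mem_range.2 hcon.1, mem_range.2 hcon.2⟩, ?_⟩
  have h2 : n.1.1 ^^^ n.1.2.1 ^^^ n.1.2.2 = 0 := n.2
  rw [Nat.xor_eq_zero_iff] at h2
  apply Subtype.ext
  show (n.1.1, n.1.2.1, n.1.1 ^^^ n.1.2.1) = n.1
  rw [h2]

theorem finite_support {F0 : ℝ × ℝ → ℝ} (F1 F2 : ℝ × ℝ → ℝ) (h0 : Admissible F0) (k : ℤ) :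
    (Function.support fun n : xorZero => localForm F0 F1 F2 k n.1.1 n.1.2.1 n.1.2.2).Finite := by
  obtain ⟨R, hR⟩ := h0.exists_radius
  have hk : (0 : ℝ) < 2 ^ k := by positivity
  obtain ⟨N, hN⟩ := exists_nat_ge (R / 2 ^ k)
  rw [div_le_iff₀' hk] at hN
  refine Set.Finite.subset ((range N ×ˢ range N).map emb).finite_toSet fun n hn => ?_
  by_contra hcon
  exact hn (zero_off F1 F2 hR hN n hcon)

theorem form_bound (S : Finset ℤ) (ε : ℤ → ℝ) {F0 F1 F2 : ℝ × ℝ → ℝ} (hε : ∀ k ∈ S, |ε k| ≤ 1)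
    (h0 : Admissible F0) (h1 : Admissible F1) (h2 : Admissible F2) :
    |dyadicForm S ε F0 F1 F2| ≤ 54 * (normL3 F0 * normL3 F1 * normL3 F2) := by
  obtain ⟨R, hR⟩ := h0.exists_radius
  obtain ⟨lo, hlo⟩ := S.bddBelow
  obtain ⟨hi, hhi⟩ := S.bddAbove
  set k0 := lo - 1 with hk0
  have hη : (0 : ℝ) < 2 ^ k0 := by positivity
  obtain ⟨K1, hK1⟩ := pow_unbounded_of_one_lt (R / 2 ^ k0) (one_lt_two (α := ℝ))
  set K := max K1 (hi - k0).toNat with hK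
  have hRK : R ≤ (2 : ℝ) ^ k0 * 2 ^ K := by
    rw [div_lt_iff₀' hη] at hK1
    have : (2 : ℝ) ^ K1 ≤ 2 ^ K := pow_le_pow_right₀ one_le_two (le_max_left _ _)
    nlinarith
  have hb := prod_bound h0 h1 h2 k0 K
  set g : ℤ → ℝ := fun k => |∑' n : xorZero, localForm F0 F1 F2 k n.1.1 n.1.2.1 n.1.2.2| with hg
  have s1 : |dyadicForm S ε F0 F1 F2| ≤ ∑ k ∈ S, g k := by
    refine (Finset.abs_sum_le_sum_abs _ _).trans (Finset.sum_le_sum fun k hk => ?_)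
    rw [abs_mul]
    exact mul_le_of_le_one_left (abs_nonneg _) (hε k hk)
  have s2 : ∑ k ∈ S, g k ≤ ∑ k ∈ (range K).image (fun i : ℕ => k0 + 1 + i), g k := by
    refine Finset.sum_le_sum_of_subset_of_nonneg (fun k hk => ?_) fun k _ _ => abs_nonneg _
    have a1 : lo ≤ k := hlo hk
    have a2 : k ≤ hi := hhi hk
    have a3 : (hi - k0).toNat ≤ K := le_max_right _ _
    rw [Finset.mem_image]
    refine ⟨(k - lo).toNat, mem_range.2 (by omega), by omega⟩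
  rw [Finset.sum_image (fun a _ b _ h => by simpa using h)] at s2
  refine s1.trans (s2.trans (le_trans (Finset.sum_le_sum fun i hi' => ?_) hb))
  have hi2 : i < K := mem_range.1 hi'
  have hN : R ≤ (2 : ℝ) ^ (k0 + 1 + i) * ((2 ^ (K - 1 - i) : ℕ) : ℝ) := by
    rw [zpow_scale]
    have : (2 : ℝ) ^ K = 2 * 2 ^ i * ((2 ^ (K - 1 - i) : ℕ) : ℝ) := by
      push_cast
      rw [← pow_succ', ← pow_add]
      congr 1
      omega
    rw [mul_assoc, ← this]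
    exact hRK
  simp only [hg]
  rw [tsum_eq_sum (zero_off F1 F2 hR hN), Finset.sum_map, Finset.sum_product]
  refine (Finset.abs_sum_le_sum_abs _ _).trans (Finset.sum_le_sum fun n0 _ => ?_)
  exact Finset.abs_sum_le_sum_abs _ _

end Vale.Agent.P075
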